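import Mathlib

open MeasureTheory
open scoped ENNReal

namespace Vale.Agent.P105

/-- The fair coin: mass one half at `true` and one half at `false`. -/
noncomputable def fairCoin : Measure Bool :=
  (1 / 2 : ℝ≥0∞) • Measure.dirac true + (1 / 2 : ℝ≥0∞) • Measure.dirac false

/-- The unbiased Bernoulli convolution: the law of the random series
`∑ n, ε n * lam ^ n`, where the signs `ε n = ±1` are independent and fair. -/
noncomputable def bernoulliConv (lam : ℝ) : Measure ℝ :=
  (Measure.infinitePi fun _ : ℕ => fairCoin).map
    fun ω : ℕ → Bool => ∑' n : ℕ, (if ω n then (1 : ℝ) else -1) * lam ^ n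

/-- A measure on the line is singular if it gives full mass (one) to a Borel set of
Lebesgue measure zero. -/
def IsSingular (ν : Measure ℝ) : Prop :=
  ∃ A : Set ℝ, MeasurableSet A ∧ volume A = 0 ∧ ν A = 1

/-- A Pisot number: a real algebraic integer `β > 1` all of whose other Galois conjugates
(the complex roots of its minimal polynomial over the rationals) have modulus `< 1`. -/
def IsPisot (β : ℝ) : Prop :=
  1 < β ∧ IsIntegral ℤ β ∧
    ∀ z : ℂ, Polynomial.aeval z (minpoly ℚ β) = 0 → z ≠ (β : ℂ) → ‖z‖ < 1

end Vale.Agent.P105
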