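import Mathlib
import Vale.Agent.P105.Defs

open MeasureTheory ProbabilityTheory Complex Finset Filter
open scoped ENNReal Topology

namespace Vale.Agent.P105

instance fairCoin_prob : IsProbabilityMeasure fairCoin := by
  constructor
  simp [fairCoin, ENNReal.inv_two_add_inv_two]

/-- the sign attached to a coin toss -/
def sgn (b : Bool) : ℝ := if b then 1 else -1

theorem abs_sgn (b : Bool) : |sgn b| = 1 := by
  cases b <;> simp [sgn]

theorem summable_sgn {lam : ℝ} (h0 : 0 ≤ lam) (h1 : lam < 1) (ω : ℕ → Bool) :
    Summable fun n => sgn (ω n) * lam ^ n := by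
  refine Summable.of_norm_bounded (summable_geometric_of_lt_one h0 h1) fun n => ?_
  rw [Real.norm_eq_abs, abs_mul, abs_sgn, one_mul, abs_of_nonneg (pow_nonneg h0 n)]

theorem measurable_term (lam : ℝ) (n : ℕ) :
    Measurable fun ω : ℕ → Bool => sgn (ω n) * lam ^ n :=
  ((measurable_of_countable sgn).comp (measurable_pi_apply n)).mul_const _

theorem measurable_series {lam : ℝ} (h0 : 0 ≤ lam) (h1 : lam < 1) :
    Measurable fun ω : ℕ → Bool => ∑' n, sgn (ω n) * lam ^ n := by
  refine measurable_of_tendsto_metrizable
    (f := fun M ω => ∑ n ∈ range M, sgn (ω n) * lam ^ n) (fun M => ?_) ?_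
  · exact Finset.measurable_sum _ fun n _ => measurable_term lam n
  · rw [tendsto_pi_nhds]
    intro ω
    exact (summable_sgn h0 h1 ω).hasSum.tendsto_sum_nat

theorem bernoulliConv_eq (lam : ℝ) : bernoulliConv lam =
    (Measure.infinitePi fun _ : ℕ => fairCoin).map
      fun ω : ℕ → Bool => ∑' n, sgn (ω n) * lam ^ n := rfl

theorem bernoulliConv_prob {lam : ℝ} (h0 : 0 ≤ lam) (h1 : lam < 1) :
    IsProbabilityMeasure (bernoulliConv lam) := by
  rw [bernoulliConv_eq]
  exact Measure.isProbabilityMeasure_map (measurable_series h0 h1).aemeasurable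

theorem charFun_term (r t : ℝ) (n : ℕ) :
    charFun ((Measure.infinitePi fun _ : ℕ => fairCoin).map
      fun ω : ℕ → Bool => sgn (ω n) * r) t = (Real.cos (t * r) : ℂ) := by
  have hm : Measurable fun b : Bool => sgn b * r := measurable_of_countable _
  have : ∀ b : Bool, IsFiniteMeasure ((1 / 2 : ℝ≥0∞) • Measure.dirac b) := fun b =>
    ⟨by simp⟩
  have : (fun ω : ℕ → Bool => sgn (ω n) * r) = (fun b : Bool => sgn b * r) ∘ fun ω => ω n := rfl
  rw [this, ← Measure.map_map hm (measurable_pi_apply n), Measure.infinitePi_map_eval,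
    charFun_apply_real, integral_map hm.aemeasurable (by fun_prop), fairCoin,
    integral_add_measure (Integrable.of_finite) (Integrable.of_finite)]
  simp only [integral_smul_measure, integral_dirac, sgn]
  simp only [one_div, ENNReal.toReal_inv, ENNReal.toReal_ofNat, if_true, one_mul,
    Bool.false_eq_true, if_false, Complex.ofReal_cos, Complex.cos]
  push_cast
  simp only [Complex.real_smul]
  push_cast
  ring_nf

theorem tendsto_charFun {lam : ℝ} (h0 : 0 ≤ lam) (h1 : lam < 1) (t : ℝ) :
    Tendsto (fun M => ∏ n ∈ range M, |Real.cos (t * lam ^ n)|) atTop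
      (𝓝 ‖charFun (bernoulliConv lam) t‖) := by
  set P := Measure.infinitePi fun _ : ℕ => fairCoin with hP
  have hind : iIndepFun (fun n (ω : ℕ → Bool) => sgn (ω n) * lam ^ n) P :=
    iIndepFun_infinitePi (X := fun n b => sgn b * lam ^ n) fun n => measurable_of_countable _
  have hA : ∀ M, ∫ ω, cexp (t * (∑ n ∈ range M, sgn (ω n) * lam ^ n : ℝ) * I) ∂P =
      ∏ n ∈ range M, (Real.cos (t * lam ^ n) : ℂ) := by
    intro M
    have h2 := (hind.restrict (range M)).charFun_map_fun_finsetSum_eq_prod
      (fun n _ => (measurable_term lam n).aemeasurable)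
    have h3 := congrFun h2 t
    rw [charFun_apply_real, integral_map
      (Finset.measurable_sum _ fun n _ => measurable_term lam n).aemeasurable (by fun_prop)] at h3
    rw [h3, Finset.prod_apply]
    exact prod_congr rfl fun n _ => charFun_term _ _ _
  have hB : Tendsto (fun M => ∫ ω, cexp (t * (∑ n ∈ range M, sgn (ω n) * lam ^ n : ℝ) * I) ∂P)
      atTop (𝓝 (charFun (bernoulliConv lam) t)) := by
    rw [bernoulliConv_eq, charFun_apply_real,
      integral_map (measurable_series h0 h1).aemeasurable (by fun_prop)]
    refine tendsto_integral_of_dominated_convergence (fun _ => 1) (fun M => ?_)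
      (integrable_const _) (fun M => Eventually.of_forall fun ω => ?_)
      (Eventually.of_forall fun ω => ?_)
    · have := Finset.measurable_sum (range M) fun n _ => measurable_term lam n
      exact (Measurable.aestronglyMeasurable (by fun_prop))
    · rw [← Complex.ofReal_mul, Complex.norm_exp_ofReal_mul_I]
    · have hc : Continuous fun y : ℝ => cexp (t * y * I) := by fun_prop
      exact (hc.tendsto _).comp (summable_sgn h0 h1 ω).hasSum.tendsto_sum_nat
  simp_rw [hA] at hB
  have := hB.norm
  simpa only [norm_prod, Complex.norm_real, Real.norm_eq_abs] using this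

end Vale.Agent.P105
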