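import Mathlib

open MeasureTheory ProbabilityTheory Complex Finset Filter
open scoped ENNReal ComplexConjugate Topology

namespace Vale.Agent.P105

/-- Borel-Cantelli form of singularity. -/
theorem singular_of_small_sets (ν γ : Measure ℝ) [IsProbabilityMeasure ν]
    [IsProbabilityMeasure γ]
    (h : ∀ ε : ℝ, 0 < ε → ∃ A : Set ℝ, MeasurableSet A ∧ γ.real A ≤ ε ∧ ν.real Aᶜ ≤ ε) :
    ∃ S : Set ℝ, MeasurableSet S ∧ γ S = 0 ∧ ν S = 1 := by
  have h2 : ∀ k : ℕ, (0 : ℝ) < (1 / 2) ^ k := fun k => by positivity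
  choose A hAm hAγ hAν using fun k : ℕ => h _ (h2 k)
  have hsum : ∀ (μ : Measure ℝ) [IsFiniteMeasure μ] (B : ℕ → Set ℝ),
      (∀ k, μ.real (B k) ≤ (1 / 2) ^ k) → ∑' k, μ (B k) ≠ ∞ := by
    intro μ _ B hB
    have h1 : ∀ k, μ (B k) ≤ ENNReal.ofReal ((1 / 2 : ℝ) ^ k) := by
      intro k
      rw [← ofReal_measureReal (measure_ne_top μ (B k))]
      exact ENNReal.ofReal_le_ofReal (hB k)
    refine ne_top_of_le_ne_top ?_ (ENNReal.tsum_le_tsum h1)
    rw [← ENNReal.ofReal_tsum_of_nonneg (fun k => (h2 k).le) summable_geometric_two]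
    exact ENNReal.ofReal_ne_top
  have hmeas : MeasurableSet (limsup A atTop) := MeasurableSet.measurableSet_limsup hAm
  refine ⟨limsup A atTop, hmeas, measure_limsup_atTop_eq_zero (hsum γ A hAγ), ?_⟩
  have h3 : ν (limsup (fun k => (A k)ᶜ) atTop) = 0 :=
    measure_limsup_atTop_eq_zero (hsum ν _ hAν)
  have h4 : (limsup A atTop)ᶜ ⊆ limsup (fun k => (A k)ᶜ) atTop := by
    intro y hy
    rw [Set.mem_compl_iff, mem_limsup_iff_frequently_mem, not_frequently] at hy
    rw [mem_limsup_iff_frequently_mem]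
    exact hy.frequently
  exact (prob_compl_eq_zero_iff hmeas).1 (measure_mono_null h4 h3)

/-- trigonometric polynomial -/
noncomputable def trigP (J : ℕ) (c : ℕ → ℂ) (t : ℕ → ℝ) (y : ℝ) : ℂ :=
  ∑ j ∈ range J, c j * cexp (t j * y * I)

theorem continuous_trigP (J : ℕ) (c : ℕ → ℂ) (t : ℕ → ℝ) : Continuous (trigP J c t) := by
  unfold trigP
  fun_prop

theorem integrable_cexp (P : Measure ℝ) [IsProbabilityMeasure P] (s : ℝ) :
    Integrable (fun y : ℝ => cexp (s * y * I)) P := by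
  refine Integrable.of_bound (by fun_prop) 1 (Eventually.of_forall fun y => ?_)
  have : (s : ℂ) * y * I = ((s * y : ℝ) : ℂ) * I := by push_cast; ring
  rw [this, Complex.norm_exp_ofReal_mul_I]

theorem integral_trigP (P : Measure ℝ) [IsProbabilityMeasure P] (J : ℕ) (c : ℕ → ℂ)
    (t : ℕ → ℝ) :
    ∫ y, trigP J c t y ∂P = ∑ j ∈ range J, c j * charFun P (t j) := by
  unfold trigP
  rw [integral_finsetSum _ (fun j _ => (integrable_cexp P (t j)).const_mul _)]
  refine sum_congr rfl fun j _ => ?_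
  rw [integral_const_mul, charFun_apply_real]

theorem integrable_trigP (P : Measure ℝ) [IsProbabilityMeasure P] (J : ℕ) (c : ℕ → ℂ)
    (t : ℕ → ℝ) : Integrable (trigP J c t) P := by
  unfold trigP
  exact integrable_finsetSum _ (fun j _ => (integrable_cexp P (t j)).const_mul _)

theorem normSq_trigP (J : ℕ) (c : ℕ → ℂ) (t : ℕ → ℝ) (y : ℝ) :
    ((‖trigP J c t y‖ ^ 2 : ℝ) : ℂ) =
      ∑ j ∈ range J, ∑ l ∈ range J, c j * conj (c l) * cexp (((t j - t l : ℝ) : ℂ) * y * I) := by
  push_cast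
  rw [← Complex.mul_conj']
  unfold trigP
  rw [map_sum, sum_mul_sum]
  refine sum_congr rfl fun j _ => sum_congr rfl fun l _ => ?_
  rw [map_mul, ← Complex.exp_conj]
  have : cexp (((t j : ℂ) - t l) * y * I) =
      cexp (t j * y * I) * cexp (conj ((t l : ℂ) * y * I)) := by
    rw [← Complex.exp_add]
    congr 1
    simp
    ring
  rw [this]
  ring

theorem integrable_normSq_trigP (P : Measure ℝ) [IsProbabilityMeasure P] (J : ℕ) (c : ℕ → ℂ)
    (t : ℕ → ℝ) : Integrable (fun y => ‖trigP J c t y‖ ^ 2) P := by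
  have h : Integrable (fun y => ((‖trigP J c t y‖ ^ 2 : ℝ) : ℂ)) P := by
    simp_rw [normSq_trigP]
    exact integrable_finsetSum _ fun j _ => integrable_finsetSum _ fun l _ =>
      (integrable_cexp P (t j - t l)).const_mul _
  have := h.re
  simpa only [RCLike.re_to_complex, Complex.ofReal_re] using this

theorem integral_normSq_trigP_le (P : Measure ℝ) [IsProbabilityMeasure P] (J : ℕ) (c : ℕ → ℂ)
    (hc : ∀ j, ‖c j‖ ≤ 1) (t : ℕ → ℝ) :
    ∫ y, ‖trigP J c t y‖ ^ 2 ∂P ≤
      ∑ j ∈ range J, ∑ l ∈ range J, ‖charFun P (t j - t l)‖ := by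
  have h1 : ((∫ y, ‖trigP J c t y‖ ^ 2 ∂P : ℝ) : ℂ) =
      ∑ j ∈ range J, ∑ l ∈ range J, c j * conj (c l) * charFun P (t j - t l) := by
    rw [← integral_complex_ofReal]
    simp_rw [normSq_trigP]
    rw [integral_finsetSum _ (fun j _ => integrable_finsetSum _ fun l _ =>
      (integrable_cexp P (t j - t l)).const_mul _)]
    refine sum_congr rfl fun j _ => ?_
    rw [integral_finsetSum _ (fun l _ => (integrable_cexp P (t j - t l)).const_mul _)]
    refine sum_congr rfl fun l _ => ?_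
    rw [integral_const_mul, charFun_apply_real]
  calc ∫ y, ‖trigP J c t y‖ ^ 2 ∂P ≤ ‖((∫ y, ‖trigP J c t y‖ ^ 2 ∂P : ℝ) : ℂ)‖ := by
        rw [Complex.norm_real]; exact le_abs_self _
    _ ≤ _ := by
        rw [h1]
        refine (norm_sum_le _ _).trans (sum_le_sum fun j _ => ?_)
        refine (norm_sum_le _ _).trans (sum_le_sum fun l _ => ?_)
        rw [norm_mul, norm_mul, Complex.norm_conj]
        have := mul_le_mul (hc j) (hc l) (norm_nonneg _) zero_le_one
        nlinarith [norm_nonneg (charFun P (t j - t l))]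

theorem norm_charFun_gaussian_le (s : ℝ) (hs : 0 < s ^ 2) :
    ‖charFun (gaussianReal 0 1) s‖ ≤ 2 / s ^ 2 := by
  rw [charFun_gaussianReal]
  have : (s : ℂ) * ((0 : ℝ) : ℂ) * I - ((1 : NNReal) : ℝ) * (s : ℂ) ^ 2 / 2
      = ((-(s ^ 2 / 2) : ℝ) : ℂ) := by
    push_cast; simp
  rw [this, Complex.norm_exp_ofReal, Real.exp_neg, inv_eq_one_div,
    div_le_div_iff₀ (Real.exp_pos _) hs]
  nlinarith [Real.add_one_le_exp (s ^ 2 / 2)]

/-- Second-moment criterion for singularity in terms of the characteristic function. -/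
theorem singular_of_charFun (ν : Measure ℝ) [IsProbabilityMeasure ν]
    (h : ∀ ε : ℝ, 0 < ε → ∃ (J : ℕ) (t : ℕ → ℝ) (m : ℝ), 0 < m ∧ 1 ≤ ε * J * m ^ 2 ∧
      (∀ j < J, m ≤ ‖charFun ν (t j)‖) ∧
      (∀ j < J, ∀ l < J, j ≠ l → (J : ℝ) ≤ (t j - t l) ^ 2 ∧
        ‖charFun ν (t j - t l)‖ ≤ (1 + ε) * (‖charFun ν (t j)‖ * ‖charFun ν (t l)‖))) :
    ∃ S : Set ℝ, MeasurableSet S ∧ volume S = 0 ∧ ν S = 1 := by
  suffices H : ∃ S : Set ℝ, MeasurableSet S ∧ gaussianReal 0 1 S = 0 ∧ ν S = 1 by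
    obtain ⟨S, h1, h2, h3⟩ := H
    exact ⟨S, h1, gaussianReal_absolutelyContinuous' 0 one_ne_zero h2, h3⟩
  refine singular_of_small_sets ν _ fun ε hε => ?_
  obtain ⟨J, t, m, hm, hJ, h1, h2⟩ := h (ε / 12) (by positivity)
  have hJpos : (0 : ℝ) < J := by
    rcases Nat.eq_zero_or_pos J with h0 | h0
    · rw [h0] at hJ; norm_num at hJ
    · exact_mod_cast h0
  set φ := charFun ν with hφ
  let c : ℕ → ℂ := fun j => conj (φ (t j)) / (‖φ (t j)‖ : ℂ)
  have hc : ∀ j, ‖c j‖ ≤ 1 := by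
    intro j
    simp only [c, norm_div, Complex.norm_conj, Complex.norm_real, norm_norm]
    exact div_self_le_one _
  set M : ℝ := ∑ j ∈ range J, ‖φ (t j)‖ with hM
  have hMlow : J * m ≤ M := by
    have : ∑ j ∈ range J, m ≤ M := sum_le_sum fun j hj => h1 j (mem_range.1 hj)
    simpa using this
  have hMpos : 0 < M := lt_of_lt_of_le (by positivity) hMlow
  have hJM : (J : ℝ) ≤ ε / 12 * M ^ 2 := by
    have : (J * m) ^ 2 ≤ M ^ 2 := pow_le_pow_left₀ (by positivity) hMlow 2
    calc (J : ℝ) = J * 1 := by ring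
      _ ≤ J * (ε / 12 * J * m ^ 2) := by gcongr
      _ = ε / 12 * (J * m) ^ 2 := by ring
      _ ≤ ε / 12 * M ^ 2 := by gcongr
  set g := trigP J c t with hg
  have hint : ∫ y, g y ∂ν = (M : ℂ) := by
    rw [hg, integral_trigP, hM]
    push_cast
    refine sum_congr rfl fun j hj => ?_
    have hpos : 0 < ‖φ (t j)‖ := lt_of_lt_of_le hm (h1 j (mem_range.1 hj))
    have hne : (‖φ (t j)‖ : ℂ) ≠ 0 := by exact_mod_cast hpos.ne'
    simp only [c, ← hφ]
    field_simp
    rw [mul_comm, Complex.mul_conj']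
  -- second moment under ν
  have hν2 : ∫ y, ‖g y‖ ^ 2 ∂ν ≤ J + (1 + ε / 12) * M ^ 2 := by
    refine (integral_normSq_trigP_le ν J c hc t).trans ?_
    have : ∀ j ∈ range J, ∑ l ∈ range J, ‖charFun ν (t j - t l)‖ ≤
        1 + (1 + ε / 12) * (‖φ (t j)‖ * M) := by
      intro j hj
      have : ∀ l ∈ range J, ‖charFun ν (t j - t l)‖ ≤
          (if j = l then 1 else 0) + (1 + ε / 12) * (‖φ (t j)‖ * ‖φ (t l)‖) := by
        intro l hl
        split_ifs with hjl
        · have := norm_charFun_le_one (μ := ν) (t j - t l)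
          have h0 : 0 ≤ (1 + ε / 12) * (‖φ (t j)‖ * ‖φ (t l)‖) := by positivity
          linarith
        · rw [zero_add]
          exact (h2 j (mem_range.1 hj) l (mem_range.1 hl) hjl).2
      refine (sum_le_sum this).trans ?_
      rw [sum_add_distrib, ← mul_sum, ← mul_sum, sum_ite_eq, if_pos hj]
    refine (sum_le_sum this).trans ?_
    rw [sum_add_distrib, ← mul_sum, ← sum_mul]
    simp only [sum_const, card_range, nsmul_eq_mul, mul_one]
    rw [← hM, sq]
  -- second moment under the Gaussian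
  have hγ2 : ∫ y, ‖g y‖ ^ 2 ∂(gaussianReal 0 1) ≤ 3 * J := by
    refine (integral_normSq_trigP_le _ J c hc t).trans ?_
    have : ∀ j ∈ range J, ∑ l ∈ range J, ‖charFun (gaussianReal 0 1) (t j - t l)‖ ≤ 3 := by
      intro j hj
      have : ∀ l ∈ range J, ‖charFun (gaussianReal 0 1) (t j - t l)‖ ≤
          (if j = l then 1 else 0) + 2 / J := by
        intro l hl
        split_ifs with hjl
        · have := norm_charFun_le_one (μ := gaussianReal 0 1) (t j - t l)
          have h0 : (0 : ℝ) ≤ 2 / J := by positivity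
          linarith
        · rw [zero_add]
          have h3 := (h2 j (mem_range.1 hj) l (mem_range.1 hl) hjl).1
          refine (norm_charFun_gaussian_le _ (lt_of_lt_of_le hJpos h3)).trans ?_
          gcongr
      refine (sum_le_sum this).trans ?_
      rw [sum_add_distrib, sum_ite_eq, if_pos hj]
      simp only [sum_const, card_range, nsmul_eq_mul]
      field_simp
      norm_num
    refine (sum_le_sum this).trans ?_
    simp [mul_comm]
  have hcont : Continuous g := continuous_trigP J c t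
  refine ⟨{y | M ^ 2 / 4 ≤ ‖g y‖ ^ 2}, ?_, ?_, ?_⟩
  · exact measurableSet_le measurable_const (by fun_prop)
  · have := mul_meas_ge_le_integral_of_nonneg (μ := gaussianReal 0 1)
      (f := fun y => ‖g y‖ ^ 2) (Eventually.of_forall fun y => by positivity)
      (integrable_normSq_trigP _ J c t) (M ^ 2 / 4)
    have h5 : M ^ 2 / 4 * (gaussianReal 0 1).real {y | M ^ 2 / 4 ≤ ‖g y‖ ^ 2} ≤ M ^ 2 / 4 * ε := by
      nlinarith
    exact le_of_mul_le_mul_left h5 (by positivity)
  · have hexp : ∀ y, ‖g y - M‖ ^ 2 = ‖g y‖ ^ 2 - 2 * M * (g y).re + M ^ 2 := by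
      intro y
      rw [Complex.sq_norm, Complex.sq_norm, Complex.normSq_apply, Complex.normSq_apply]
      simp
      ring
    have hi1 : Integrable (fun y => ‖g y‖ ^ 2) ν := integrable_normSq_trigP _ J c t
    have hi2 : Integrable (fun y => (g y).re) ν := (integrable_trigP ν J c t).re
    have hi3 : Integrable (fun y => ‖g y - M‖ ^ 2) ν := by
      simp_rw [hexp]
      exact (hi1.sub (hi2.const_mul _)).add (integrable_const _)
    have hre : ∫ y, (g y).re ∂ν = M := by
      have := integral_re (𝕜 := ℂ) (integrable_trigP ν J c t)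
      simp only [RCLike.re_to_complex] at this
      rw [← hg] at this
      rw [this, hint, Complex.ofReal_re]
    have hvar : ∫ y, ‖g y - M‖ ^ 2 ∂ν ≤ J + ε / 12 * M ^ 2 := by
      simp_rw [hexp]
      have hi4 : Integrable (fun y => ‖g y‖ ^ 2 - 2 * M * (g y).re) ν :=
        hi1.sub (hi2.const_mul _)
      rw [integral_add hi4 (integrable_const _),
        integral_sub hi1 (hi2.const_mul _), integral_const_mul, hre]
      simp only [integral_const, probReal_univ, smul_eq_mul, one_mul]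
      nlinarith
    have := mul_meas_ge_le_integral_of_nonneg (μ := ν)
      (f := fun y => ‖g y - M‖ ^ 2) (Eventually.of_forall fun y => by positivity) hi3 (M ^ 2 / 4)
    have hsub : {y | M ^ 2 / 4 ≤ ‖g y‖ ^ 2}ᶜ ⊆ {y | M ^ 2 / 4 ≤ ‖g y - M‖ ^ 2} := by
      intro y hy
      simp only [Set.mem_compl_iff, Set.mem_ofPred_eq, not_le] at hy ⊢
      have h6 : ‖g y‖ < M / 2 := by
        refine lt_of_pow_lt_pow_left₀ 2 (by positivity) ?_
        linarith [show (M / 2) ^ 2 = M ^ 2 / 4 by ring]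
      have h7 : M ≤ ‖g y‖ + ‖g y - M‖ := by
        have := norm_sub_le (g y) (g y - M)
        rw [sub_sub_cancel, Complex.norm_real, Real.norm_eq_abs, abs_of_pos hMpos] at this
        exact this
      have h8 : M / 2 ≤ ‖g y - M‖ := by linarith
      calc M ^ 2 / 4 = (M / 2) ^ 2 := by ring
        _ ≤ _ := pow_le_pow_left₀ (by positivity) h8 2
    have h5 : M ^ 2 / 4 * ν.real {y | M ^ 2 / 4 ≤ ‖g y - M‖ ^ 2} ≤ M ^ 2 / 4 * ε := by
      nlinarith
    exact (measureReal_mono hsub).trans (le_of_mul_le_mul_left h5 (by positivity))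

end Vale.Agent.P105
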