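import Mathlib

open Finset

namespace Vale.Agent.P105

/-- all backward partial sums of `f` are bounded by `C` -/
def SB (f : ℤ → ℝ) (C : ℝ) : Prop := ∀ (n : ℤ) (M : ℕ), ∑ i ∈ range M, f (n - i) ≤ C

theorem SB.mono {f g : ℤ → ℝ} {C : ℝ} (h : SB g C) (hfg : ∀ k, f k ≤ g k) : SB f C :=
  fun n M => (sum_le_sum fun _ _ => hfg _).trans (h n M)

theorem SB.le {f : ℤ → ℝ} {C D : ℝ} (h : SB f C) (hCD : C ≤ D) : SB f D :=
  fun n M => (h n M).trans hCD

theorem SB.add {f g : ℤ → ℝ} {C D : ℝ} (hf : SB f C) (hg : SB g D) :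
    SB (fun k => f k + g k) (C + D) := fun n M => by
  rw [sum_add_distrib]; exact add_le_add (hf n M) (hg n M)

theorem SB.shift {f : ℤ → ℝ} {C : ℝ} (hf : SB f C) (m : ℤ) : SB (fun k => f (k + m)) C :=
  fun n M => by
    have := hf (n + m) M
    refine le_of_eq_of_le (sum_congr rfl fun i _ => ?_) this
    change f (n - i + m) = f (n + m - i)
    congr 1; ring

theorem SB.smul {f : ℤ → ℝ} {C c : ℝ} (hf : SB f C) (hc : 0 ≤ c) :
    SB (fun k => c * f k) (c * C) := fun n M => by
  rw [← mul_sum]; exact mul_le_mul_of_nonneg_left (hf n M) hc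

theorem SB_of_potential {f H : ℤ → ℝ} {C : ℝ} (h : ∀ j, f j ≤ H j - H (j - 1))
    (h0 : ∀ j, 0 ≤ H j) (hC : ∀ j, H j ≤ C) : SB f C := by
  intro n M
  have : ∑ i ∈ range M, f (n - i) ≤ H n - H (n - M) := by
    induction M with
    | zero => simp
    | succ M ih =>
      rw [sum_range_succ]
      have h1 := h (n - M)
      have h2 : n - ((M + 1 : ℕ) : ℤ) = n - M - 1 := by push_cast; ring
      rw [h2]; linarith
  linarith [h0 (n - M), hC n]

/-- two sided geometric decay -/
noncomputable def geo (lam : ℝ) (k : ℤ) : ℝ := lam ^ k.natAbs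

theorem geo_nonneg {lam : ℝ} (h0 : 0 ≤ lam) (k : ℤ) : 0 ≤ geo lam k := pow_nonneg h0 _

theorem SB_geo {lam : ℝ} (h0 : 0 ≤ lam) (h1 : lam ≤ 2 / 3) : SB (geo lam) 6 := by
  have hp : ∀ n : ℕ, lam ^ n ≤ 1 := fun n => pow_le_one₀ h0 (by linarith)
  have hq : ∀ n : ℕ, 0 ≤ lam ^ n := fun n => pow_nonneg h0 n
  refine SB_of_potential
    (H := fun j => if j ≤ 0 then 3 * lam ^ j.natAbs else 6 - 3 * lam ^ j.natAbs) ?_ ?_ ?_
  · intro j
    unfold geo
    by_cases hj : j ≤ 0
    · have h2 : j - 1 ≤ 0 := by omega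
      have h3 : (j - 1).natAbs = j.natAbs + 1 := by omega
      simp only [hj, h2, if_true, h3, pow_succ]
      nlinarith [hq j.natAbs]
    · by_cases h2 : j - 1 ≤ 0
      · have h3 : j = 1 := by omega
        subst h3
        norm_num
        linarith
      · have h3 : j.natAbs = (j - 1).natAbs + 1 := by omega
        simp only [hj, h2, if_false, h3, pow_succ]
        nlinarith [hq (j - 1).natAbs]
  · intro j
    split_ifs
    · linarith [hq j.natAbs]
    · linarith [hp j.natAbs]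
  · intro j
    split_ifs
    · linarith [hp j.natAbs]
    · linarith [hq j.natAbs]

/-- indicator of an integer interval -/
noncomputable def ind (p q k : ℤ) : ℝ := if p ≤ k ∧ k < q then 1 else 0

theorem ind_nonneg (p q k : ℤ) : 0 ≤ ind p q k := by
  unfold ind; split_ifs <;> norm_num

theorem ind_eq_one {p q k : ℤ} (h1 : p ≤ k) (h2 : k < q) : ind p q k = 1 := by
  unfold ind; rw [if_pos ⟨h1, h2⟩]

theorem SB_ind (p : ℤ) (N : ℕ) : SB (ind p (p + N)) N := by
  refine SB_of_potential (H := fun j => ((max 0 (min (j + 1 - p) N) : ℤ) : ℝ)) ?_ ?_ ?_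
  · intro j
    unfold ind
    rw [← Int.cast_sub]
    split_ifs with h
    · have : (1 : ℤ) ≤ max 0 (min (j + 1 - p) N) - max 0 (min (j - 1 + 1 - p) N) := by omega
      exact_mod_cast this
    · have : (0 : ℤ) ≤ max 0 (min (j + 1 - p) N) - max 0 (min (j - 1 + 1 - p) N) := by omega
      exact_mod_cast this
  · intro j
    have : (0 : ℤ) ≤ max 0 (min (j + 1 - p) N) := by omega
    exact_mod_cast this
  · intro j
    have : max 0 (min (j + 1 - p) N) ≤ (N : ℤ) := by omega
    exact_mod_cast this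

end Vale.Agent.P105
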