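import Mathlib
import Vale.Agent.P105.SB

open Finset

namespace Vale.Agent.P105

/-- the oscillating part -/
noncomputable def osc (α c : ℂ) (k : ℤ) : ℝ := (c * α ^ k).re

theorem abs_osc_le {α : ℂ} (hα : ‖α‖ = 1) (c : ℂ) (k : ℤ) : |osc α c k| ≤ ‖c‖ := by
  unfold osc
  refine (Complex.abs_re_le_norm _).trans ?_
  rw [norm_mul, norm_zpow, hα, one_zpow, mul_one]

theorem osc_step {α : ℂ} (hα : ‖α‖ = 1) (c : ℂ) (m : ℕ) (k : ℤ) :
    osc α (c * (α ^ m - 1)) k = osc α c (k + m) - osc α c k := by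
  have h0 : α ≠ 0 := by
    intro h; rw [h] at hα; simp at hα
  unfold osc
  rw [← Complex.sub_re, zpow_add₀ h0, zpow_natCast]
  congr 1; ring

/-- A profile: the signed distances to the integers of the two-sided sequence `a * β ^ k`. -/
structure Prof (β : ℝ) (α : ℂ) (x : ℤ → ℝ) (a b : ℝ) (c : ℂ) (L : ℕ) (σ E : ℝ) : Prop where
  apos : 0 < a
  ale : a ≤ β ^ L
  int : ∀ k : ℤ, ∃ u : ℤ, x k = a * β ^ k + u
  left : ∀ k : ℤ, k ≤ -(L : ℤ) → x k = a * β ^ k
  ble : |b| ≤ 1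
  right : ∀ k : ℤ, 0 ≤ k → x k = b * β ^ (-k) - osc α c k
  sup : ∀ k, |x k| ≤ σ
  sup' : ∀ k, |x k + osc α c k| ≤ σ
  en : SB (fun k => if k < 0 then x k ^ 2 else 0) E

section
variable {β : ℝ} {α : ℂ} {x : ℤ → ℝ} {a b : ℝ} {c : ℂ} {L : ℕ} {σ E : ℝ}

theorem inv_le_of (hβ : 3 / 2 ≤ β) : β⁻¹ ≤ 2 / 3 := by
  rw [inv_le_comm₀ (by linarith) (by norm_num)]; linarith

theorem zpow_eq_geo_of_nonpos (k : ℤ) (hk : k ≤ 0) : β ^ k = geo β⁻¹ k := by
  unfold geo
  obtain ⟨n, rfl⟩ : ∃ n : ℕ, k = -(n : ℤ) := ⟨k.natAbs, by omega⟩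
  simp

theorem zpow_neg_eq_geo_of_nonneg (k : ℤ) (hk : 0 ≤ k) : β ^ (-k) = geo β⁻¹ k := by
  unfold geo
  obtain ⟨n, rfl⟩ : ∃ n : ℕ, k = (n : ℤ) := ⟨k.natAbs, by omega⟩
  simp

theorem geo_le_one (hβ : 3 / 2 ≤ β) (k : ℤ) : geo β⁻¹ k ≤ 1 :=
  pow_le_one₀ (by positivity) ((inv_le_of hβ).trans (by norm_num))

theorem geo_le_pow (hβ : 3 / 2 ≤ β) (k : ℤ) (g : ℕ) (h : g ≤ k.natAbs) :
    geo β⁻¹ k ≤ β⁻¹ ^ g :=
  pow_le_pow_of_le_one (by positivity) ((inv_le_of hβ).trans (by norm_num)) h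

theorem geo_split (k j : ℤ) (g : ℕ) (h : k.natAbs = g + j.natAbs) :
    geo β⁻¹ k = β⁻¹ ^ g * geo β⁻¹ j := by
  unfold geo; rw [h, pow_add]

theorem Prof.left_le (hβ : 3 / 2 ≤ β) (h : Prof β α x a b c L σ E) (k : ℤ)
    (hk : k ≤ -(L : ℤ)) : |x k| ≤ geo β⁻¹ (k + L) := by
  have hβ0 : 0 < β := by linarith
  rw [h.left k hk, ← zpow_eq_geo_of_nonpos _ (by omega), zpow_add₀ hβ0.ne', zpow_natCast,
    abs_of_pos (mul_pos h.apos (zpow_pos hβ0 k)), mul_comm]
  exact mul_le_mul_of_nonneg_left h.ale (zpow_pos hβ0 k).le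

theorem Prof.right_le (hβ : 3 / 2 ≤ β) (hα : ‖α‖ = 1) (h : Prof β α x a b c L σ E) (k : ℤ)
    (hk : 0 ≤ k) : |x k| ≤ geo β⁻¹ k + ‖c‖ := by
  rw [h.right k hk, zpow_neg_eq_geo_of_nonneg _ hk]
  refine (abs_sub _ _).trans (add_le_add ?_ (abs_osc_le hα c k))
  have hg : 0 ≤ geo β⁻¹ k := geo_nonneg (by positivity) k
  rw [abs_mul, abs_of_nonneg hg]
  exact mul_le_of_le_one_left hg h.ble

theorem Prof.right_sq_le (hβ : 3 / 2 ≤ β) (hα : ‖α‖ = 1) (h : Prof β α x a b c L σ E) (k : ℤ)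
    (hk : 0 ≤ k) : x k ^ 2 ≤ 2 * geo β⁻¹ k + 2 * ‖c‖ ^ 2 := by
  have h1 := h.right_le hβ hα k hk
  have h2 : 0 ≤ geo β⁻¹ k := geo_nonneg (by positivity) k
  have h3 := geo_le_one hβ k
  have h4 : x k ^ 2 ≤ (geo β⁻¹ k + ‖c‖) ^ 2 := by
    rw [← sq_abs]; exact pow_le_pow_left₀ (abs_nonneg _) h1 2
  nlinarith [sq_nonneg (geo β⁻¹ k - ‖c‖)]

theorem Prof.mono (h : Prof β α x a b c L σ E) {σ' E' : ℝ} (h1 : σ ≤ σ') (h2 : E ≤ E') :
    Prof β α x a b c L σ' E' :=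
  { h with
    sup := fun k => (h.sup k).trans h1
    sup' := fun k => (h.sup' k).trans h1
    en := h.en.le h2 }

/-- energy up to time `N` -/
theorem Prof.energy (hβ : 3 / 2 ≤ β) (hα : ‖α‖ = 1) (h : Prof β α x a b c L σ E) (N : ℕ) :
    SB (fun k => if k < (N : ℤ) then x k ^ 2 else 0) (E + 12 + 2 * ‖c‖ ^ 2 * N) := by
  have hg := SB_geo (lam := β⁻¹) (by positivity) (inv_le_of hβ)
  refine (((h.en.add (hg.smul (c := 2) (by norm_num))).add
    ((SB_ind 0 N).smul (c := 2 * ‖c‖ ^ 2) (by positivity))).le (by linarith)).mono ?_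
  intro k
  have h2 : 0 ≤ geo β⁻¹ k := geo_nonneg (by positivity) k
  have h3 := ind_nonneg 0 (0 + N) k
  have h4 : 0 ≤ 2 * ‖c‖ ^ 2 * ind 0 (0 + N) k := by positivity
  by_cases hk : k < 0
  · have : k < (N : ℤ) := by omega
    simp only [hk, this, if_true]
    linarith
  · by_cases hk2 : k < (N : ℤ)
    · simp only [hk, hk2, if_true, if_false]
      rw [ind_eq_one (by omega) (by omega)]
      linarith [h.right_sq_le hβ hα k (by omega)]
    · simp only [hk, hk2, if_false]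
      linarith

/-- The doubling step. -/
theorem Prof.step (hβ : 3 / 2 ≤ β) (hα : ‖α‖ = 1) (h : Prof β α x a b c L σ E)
    (hσ : σ ≤ 1 / 2) (g m : ℕ) (hg : 1 ≤ g) (hm : L + 2 * g ≤ m) :
    ∃ (x' : ℤ → ℝ) (a' b' : ℝ), a ≤ a' ∧
      Prof β α x' a' b' (c * (α ^ m - 1)) (L + m)
        (σ + β⁻¹ ^ g + 2 * ‖c * (α ^ m - 1)‖) (2 * E + 24 + 2 * ‖c‖ ^ 2 * m + ‖c‖ * L) := by
  have hβ0 : 0 < β := by linarith
  have hβm : 2 ≤ β ^ m := by
    calc (2 : ℝ) ≤ (3 / 2) ^ 2 := by norm_num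
      _ ≤ β ^ 2 := by gcongr
      _ ≤ β ^ m := pow_le_pow_right₀ (by linarith) (by omega)
  have hap := h.apos
  have hsup : ∀ k, |x (k + m) - x k| ≤ σ + β⁻¹ ^ g + ‖c * (α ^ m - 1)‖ := by
    intro k
    by_cases hk : (g : ℤ) ≤ k + m
    · have e1 : x (k + m) - x k = b * β ^ (-(k + m)) - osc α (c * (α ^ m - 1)) k
          - (x k + osc α c k) := by
        rw [h.right (k + m) (by omega), osc_step hα]; ring
      have e2 : |b * β ^ (-(k + m))| ≤ β⁻¹ ^ g := by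
        rw [zpow_neg_eq_geo_of_nonneg _ (by omega), abs_mul,
          abs_of_nonneg (geo_nonneg (by positivity) _)]
        refine (mul_le_of_le_one_left (geo_nonneg (by positivity) _) h.ble).trans ?_
        exact geo_le_pow hβ _ _ (by omega)
      rw [e1]
      have e3 := abs_osc_le hα (c * (α ^ m - 1)) k
      have e4 := h.sup' k
      have e5 := abs_sub (b * β ^ (-(k + m)) - osc α (c * (α ^ m - 1)) k) (x k + osc α c k)
      have e6 := abs_sub (b * β ^ (-(k + m))) (osc α (c * (α ^ m - 1)) k)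
      linarith
    · have e2 : |x k| ≤ β⁻¹ ^ g :=
        (h.left_le hβ k (by omega)).trans (geo_le_pow hβ _ _ (by omega))
      have e3 := abs_sub (x (k + m)) (x k)
      have e4 := h.sup (k + m)
      have e5 := norm_nonneg (c * (α ^ m - 1))
      linarith
  refine ⟨fun k => x (k + m) - x k, a * (β ^ m - 1), b * (β⁻¹ ^ m - 1), by nlinarith, ?_⟩
  constructor
  · nlinarith
  · rw [pow_add]
    have := h.ale
    have h3 : 0 < β ^ L := by positivity
    nlinarith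
  · intro k
    obtain ⟨u, hu⟩ := h.int (k + m)
    obtain ⟨v, hv⟩ := h.int k
    refine ⟨u - v, ?_⟩
    rw [hu, hv, zpow_add₀ hβ0.ne', zpow_natCast]
    push_cast; ring
  · intro k hk
    rw [h.left (k + m) (by push_cast at hk; omega), h.left k (by push_cast at hk; omega),
      zpow_add₀ hβ0.ne', zpow_natCast]
    ring
  · rw [abs_mul]
    have h1 : |β⁻¹ ^ m - 1| ≤ 1 := by
      have h2 : β⁻¹ ^ m ≤ 1 := pow_le_one₀ (by positivity) ((inv_le_of hβ).trans (by norm_num))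
      have h3 : 0 ≤ β⁻¹ ^ m := by positivity
      rw [abs_le]; constructor <;> linarith
    exact mul_le_one₀ h.ble (abs_nonneg _) h1
  · intro k hk
    rw [h.right (k + m) (by omega), h.right k hk, osc_step hα, neg_add, zpow_add₀ hβ0.ne',
      zpow_neg β (m : ℤ), zpow_natCast, inv_pow]
    ring
  · intro k
    linarith [hsup k, norm_nonneg (c * (α ^ m - 1))]
  · intro k
    have e1 := abs_add_le (x (k + m) - x k) (osc α (c * (α ^ m - 1)) k)
    linarith [hsup k, abs_osc_le hα (c * (α ^ m - 1)) k]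
  · have hgeo := SB_geo (lam := β⁻¹) (by positivity) (inv_le_of hβ)
    refine ((((((h.energy hβ hα m).shift m).add h.en).add (hgeo.shift L)).add
      (hgeo.shift m)).add
      ((SB_ind (-(L : ℤ)) L).smul (c := ‖c‖) (norm_nonneg _))).le (by linarith) |>.mono ?_
    intro k
    have g1 : 0 ≤ geo β⁻¹ (k + L) := geo_nonneg (by positivity) _
    have g2 : 0 ≤ geo β⁻¹ (k + m) := geo_nonneg (by positivity) _
    have g3 : 0 ≤ ‖c‖ * ind (-(L : ℤ)) (-(L : ℤ) + L) k :=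
      mul_nonneg (norm_nonneg _) (ind_nonneg _ _ _)
    by_cases hk : k < 0
    · have hk2 : k + m < (m : ℤ) := by omega
      simp only [hk, hk2, if_true]
      have e1 : (x (k + m) - x k) ^ 2 ≤ x (k + m) ^ 2 + x k ^ 2 + 2 * (|x (k + m)| * |x k|) := by
        rw [← abs_mul]
        nlinarith [neg_abs_le (x (k + m) * x k)]
      by_cases hk3 : k ≤ -(L : ℤ)
      · have e2 := h.left_le hβ k hk3
        have e3 := (h.sup (k + m)).trans hσ
        have e4 : 2 * (|x (k + m)| * |x k|) ≤ |x k| := by nlinarith [abs_nonneg (x k)]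
        linarith
      · have e2 := h.right_le hβ hα (k + m) (by omega)
        have e3 := (h.sup k).trans hσ
        have e4 : 2 * (|x (k + m)| * |x k|) ≤ |x (k + m)| := by
          nlinarith [abs_nonneg (x (k + m))]
        rw [ind_eq_one (by omega) (by omega)]
        linarith
    · simp only [hk, if_false]
      have : (0 : ℝ) ≤ if k + m < (m : ℤ) then x (k + m) ^ 2 else 0 := by
        split_ifs
        · positivity
        · exact le_rfl
      linarith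

/-- The cross sum at lag `D`. -/
theorem Prof.cross (hβ : 3 / 2 ≤ β) (hα : ‖α‖ = 1) (h : Prof β α x a b c L σ E)
    (hσ : σ ≤ 1 / 2) (g D N : ℕ) (hD : L + 2 * g ≤ D) :
    SB (fun k => if k < (N : ℤ) then |x k| * |x (k + D)| else 0)
      (12 * β⁻¹ ^ g + ‖c‖ * (L + g + 6) + ‖c‖ ^ 2 * N) := by
  have hβ0 : 0 < β := by linarith
  have hgeo := SB_geo (lam := β⁻¹) (by positivity) (inv_le_of hβ)
  have hl : 0 ≤ β⁻¹ ^ g := by positivity
  refine ((((((hgeo.shift (L + g)).smul hl).add ((hgeo.shift (D - g)).smul hl)).add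
    ((SB_ind (-((L + g : ℕ) : ℤ)) (L + g)).smul (norm_nonneg c))).add
    (hgeo.smul (norm_nonneg c))).add
    ((SB_ind 0 N).smul (c := ‖c‖ ^ 2) (by positivity))).le
      (by push_cast; linarith) |>.mono ?_
  intro k
  have g1 : 0 ≤ β⁻¹ ^ g * geo β⁻¹ (k + (L + g)) := mul_nonneg hl (geo_nonneg (by positivity) _)
  have g2 : 0 ≤ β⁻¹ ^ g * geo β⁻¹ (k + (D - g)) := mul_nonneg hl (geo_nonneg (by positivity) _)
  have g3 : 0 ≤ ‖c‖ * ind (-((L + g : ℕ) : ℤ)) (-((L + g : ℕ) : ℤ) + ((L + g : ℕ) : ℤ)) k :=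
    mul_nonneg (norm_nonneg _) (ind_nonneg _ _ _)
  have g4 : 0 ≤ ‖c‖ * geo β⁻¹ k := mul_nonneg (norm_nonneg _) (geo_nonneg (by positivity) _)
  have g5 : 0 ≤ ‖c‖ ^ 2 * ind 0 (0 + N) k := mul_nonneg (by positivity) (ind_nonneg _ _ _)
  by_cases hk : k < (N : ℤ)
  · simp only [hk, if_true]
    by_cases hk2 : k ≤ -(L : ℤ) - g
    · have e1 := h.left_le hβ k (by omega)
      rw [geo_split (k + L) (k + (L + g)) g (by omega)] at e1
      have e2 := (h.sup (k + D)).trans hσ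
      have e3 : |x k| * |x (k + D)| ≤ |x k| := by nlinarith [abs_nonneg (x k)]
      linarith
    · have e1 := h.right_le hβ hα (k + D) (by omega)
      rw [geo_split (k + D) (k + (D - g)) g (by omega)] at e1
      have e2 := (h.sup k).trans hσ
      have e3 : |x k| * |x (k + D)| ≤
          β⁻¹ ^ g * geo β⁻¹ (k + (D - g)) + ‖c‖ * |x k| := by
        nlinarith [abs_nonneg (x k)]
      by_cases hk3 : k < 0
      · rw [ind_eq_one (p := -((L + g : ℕ) : ℤ)) (by push_cast; omega) (by omega)]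
        have e4 : ‖c‖ * |x k| ≤ ‖c‖ * 1 :=
          mul_le_mul_of_nonneg_left (by linarith) (norm_nonneg _)
        linarith
      · rw [ind_eq_one (p := 0) (by omega) (by omega)]
        have e4 : ‖c‖ * |x k| ≤ ‖c‖ * (geo β⁻¹ k + ‖c‖) :=
          mul_le_mul_of_nonneg_left (h.right_le hβ hα k (by omega)) (norm_nonneg _)
        nlinarith
  · simp only [hk, if_false]
    linarith

end

end Vale.Agent.P105
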