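import Mathlib
import Vale.Agent.P105.Profile

open Finset Real

namespace Vale.Agent.P105

theorem dirichlet_unit {α : ℂ} (hα : ‖α‖ = 1) (Q : ℕ) (hQ : 0 < Q) :
    ∃ m : ℕ, 1 ≤ m ∧ m ≤ Q ∧ ‖α ^ m - 1‖ ≤ 7 / Q := by
  obtain ⟨θ, rfl⟩ := (Complex.norm_eq_one_iff α).1 hα
  obtain ⟨m, hm0, hmQ, hm⟩ := Real.exists_nat_abs_mul_sub_round_le (θ / (2 * π)) hQ
  refine ⟨m, hm0, hmQ, ?_⟩
  set p := round ((m : ℝ) * (θ / (2 * π))) with hp
  have e1 : Complex.exp (θ * Complex.I) ^ m =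
      Complex.exp (Complex.I * ((2 * π * (m * (θ / (2 * π)) - p) : ℝ) : ℂ)) := by
    rw [← Complex.exp_nat_mul]
    have hpi : (π : ℂ) ≠ 0 := by exact_mod_cast Real.pi_ne_zero
    have : Complex.I * ((2 * π * (m * (θ / (2 * π)) - p) : ℝ) : ℂ) =
        m * (θ * Complex.I) - p * (2 * π * Complex.I) := by
      push_cast; field_simp
    rw [this, Complex.exp_sub, Complex.exp_int_mul_two_pi_mul_I, div_one]
  rw [e1]
  refine Real.norm_exp_I_mul_ofReal_sub_one_le.trans ?_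
  rw [Real.norm_eq_abs, abs_mul, abs_of_pos (by positivity : 0 < 2 * π)]
  have hQ' : (0 : ℝ) < Q := by exact_mod_cast hQ
  calc 2 * π * |m * (θ / (2 * π)) - p| ≤ 7 * (1 / (Q + 1)) := by
        gcongr
        linarith [Real.pi_lt_d2]
    _ ≤ 7 * (1 / Q) := by gcongr; linarith
    _ = 7 / Q := by ring

theorem norm_pow_mul_sub_one_le {α : ℂ} (hα : ‖α‖ = 1) (m l : ℕ) :
    ‖α ^ (l * m) - 1‖ ≤ l * ‖α ^ m - 1‖ := by
  induction l with
  | zero => simp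
  | succ l ih =>
    have : α ^ ((l + 1) * m) - 1 = α ^ (l * m) * (α ^ m - 1) + (α ^ (l * m) - 1) := by ring
    rw [this]
    refine (norm_add_le _ _).trans ?_
    rw [norm_mul, norm_pow, hα, one_pow]
    push_cast; linarith

theorem inv_pow_le {β : ℝ} (hβ : 3 / 2 ≤ β) (g : ℕ) (T : ℝ) (hT : 0 < T) (h : T ≤ g) :
    β⁻¹ ^ g ≤ 2 / T := by
  have h1 : 1 + (g : ℝ) * (1 / 2) ≤ (1 + 1 / 2) ^ g := one_add_mul_le_pow (by norm_num) g
  have h2 : ((1 : ℝ) + 1 / 2) ^ g ≤ β ^ g := by gcongr; linarith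
  rw [inv_pow, inv_eq_one_div, div_le_div_iff₀ (by positivity) hT]
  linarith

theorem ceil_le_two_mul {T : ℝ} (hT : 1 ≤ T) : (⌈T⌉₊ : ℝ) ≤ 2 * T := by
  have := Nat.ceil_lt_add_one (by linarith : 0 ≤ T)
  linarith

theorem const_mul_exp_le {K s t : ℝ} (h : K ≤ 1 + (t - s)) : K * exp s ≤ exp t := by
  have h1 : exp t = exp (t - s) * exp s := by rw [← exp_add]; congr 1; ring
  rw [h1]
  gcongr
  linarith [add_one_le_exp (t - s)]

/-- A profile at scale `u`. -/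
def Good (β : ℝ) (α : ℂ) (a0 u σ E : ℝ) : Prop :=
  ∃ (x : ℤ → ℝ) (a b : ℝ) (c : ℂ) (L : ℕ), Prof β α x a b c L σ E ∧ a0 ≤ a ∧
    (L : ℝ) ≤ exp (7 * u) ∧ ‖c‖ ≤ exp (-(10 * u))

theorem Good.mono {β : ℝ} {α : ℂ} {a0 u σ E σ' E' : ℝ} (h : Good β α a0 u σ E)
    (h1 : σ ≤ σ') (h2 : E ≤ E') : Good β α a0 u σ' E' := by
  obtain ⟨x, a, b, c, L, hP, h3⟩ := h
  exact ⟨x, a, b, c, L, hP.mono h1 h2, h3⟩

theorem Good.step {β : ℝ} {α : ℂ} {a0 u σ E : ℝ} (hβ : 3 / 2 ≤ β) (hα : ‖α‖ = 1)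
    (h : Good β α a0 u σ E) (hu : 100 ≤ u) (hσ : σ ≤ 1 / 2) :
    ∃ u', 11 / 5 * u ≤ u' ∧ Good β α a0 u' (σ + exp (-u)) (2 * E + 29) := by
  obtain ⟨x, a, b, c, L, hP, ha, hL, hc⟩ := h
  set Λ := ⌈exp (7 * u)⌉₊ with hΛ
  set Q := ⌈exp (20 * u)⌉₊ with hQ
  have hΛ1 : exp (7 * u) ≤ Λ := Nat.le_ceil _
  have hΛ2 : (Λ : ℝ) ≤ 2 * exp (7 * u) := ceil_le_two_mul (one_le_exp (by linarith))
  have hQ1 : exp (20 * u) ≤ Q := Nat.le_ceil _
  have hQ2 : (Q : ℝ) ≤ 2 * exp (20 * u) := ceil_le_two_mul (one_le_exp (by linarith))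
  have hLΛ : L ≤ Λ := by exact_mod_cast hL.trans hΛ1
  have hΛpos : 1 ≤ Λ := Nat.ceil_pos.2 (exp_pos _)
  have hQpos : 0 < Q := Nat.ceil_pos.2 (exp_pos _)
  obtain ⟨m0, hm1, hm2, hm3⟩ := dirichlet_unit hα Q hQpos
  have hm4 : ‖α ^ m0 - 1‖ ≤ 7 * exp (-(20 * u)) := by
    refine hm3.trans ?_
    rw [exp_neg, ← div_eq_mul_inv]
    gcongr
  have hlam : β⁻¹ ^ Λ ≤ 2 * exp (-(7 * u)) := by
    rw [exp_neg, ← div_eq_mul_inv]
    exact inv_pow_le hβ Λ _ (exp_pos _) hΛ1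
  have hc2 : ‖c‖ ^ 2 ≤ exp (-(20 * u)) := by
    calc ‖c‖ ^ 2 ≤ exp (-(10 * u)) ^ 2 := by gcongr
      _ = exp (-(20 * u)) := by rw [← exp_nat_mul]; congr 1; push_cast; ring
  have hcL : ‖c‖ * L ≤ 1 := by
    calc ‖c‖ * L ≤ exp (-(10 * u)) * exp (7 * u) := by gcongr
      _ = exp (-(3 * u)) := by rw [← exp_add]; congr 1; ring
      _ ≤ 1 := exp_le_one_iff.2 (by linarith)
  -- common conclusion
  have key : ∀ (m : ℕ) (u' : ℝ), 11 / 5 * u ≤ u' → 3 * Λ ≤ m → (m : ℝ) ≤ 2 * exp (20 * u) →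
      2 * (m : ℝ) ≤ exp (7 * u') → ‖c * (α ^ m - 1)‖ ≤ exp (-(10 * u')) →
      Good β α a0 u' (σ + exp (-u)) (2 * E + 29) := by
    intro m u' h1 h2 h3 h4 h5
    obtain ⟨x', a', b', ha', hP'⟩ := hP.step hβ hα hσ Λ m hΛpos (by omega)
    refine ⟨x', a', b', _, _, hP'.mono ?_ ?_, ha.trans ha', ?_, h5⟩
    · have e1 : exp (-(10 * u')) ≤ exp (-(7 * u)) := exp_le_exp.2 (by linarith)
      have e2 : 4 * exp (-(7 * u)) ≤ exp (-u) := const_mul_exp_le (by linarith)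
      linarith
    · have e1 : ‖c‖ ^ 2 * m ≤ 2 := by
        calc ‖c‖ ^ 2 * m ≤ exp (-(20 * u)) * (2 * exp (20 * u)) := by gcongr
          _ = 2 := by rw [exp_neg]; field_simp
      linarith
    · have : L ≤ m := by omega
      have : (L : ℝ) ≤ m := by exact_mod_cast this
      push_cast; linarith
  by_cases hcase : 3 * Λ ≤ m0
  · have hm5 : (m0 : ℝ) ≤ 2 * exp (20 * u) := le_trans (by exact_mod_cast hm2) hQ2
    refine ⟨29 / 10 * u, by linarith, key m0 _ (by linarith) hcase hm5 ?_ ?_⟩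
    · have : 4 * exp (20 * u) ≤ exp (7 * (29 / 10 * u)) := const_mul_exp_le (by linarith)
      linarith
    · rw [norm_mul]
      calc ‖c‖ * ‖α ^ m0 - 1‖ ≤ exp (-(10 * u)) * (7 * exp (-(20 * u))) := by gcongr
        _ = 7 * exp (-(30 * u)) := by
            rw [mul_left_comm, ← exp_add]; congr 2; ring
        _ ≤ _ := const_mul_exp_le (by linarith)
  · have hm5 : (m0 : ℝ) ≤ 6 * exp (7 * u) := by
      have : (m0 : ℝ) ≤ 3 * Λ := by exact_mod_cast (by omega : m0 ≤ 3 * Λ)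
      linarith
    have hm6 : ((3 * Λ * m0 : ℕ) : ℝ) ≤ 36 * exp (14 * u) := by
      push_cast
      calc (3 : ℝ) * Λ * m0 ≤ 3 * (2 * exp (7 * u)) * (6 * exp (7 * u)) := by gcongr
        _ = 36 * exp (14 * u) := by
            rw [show 14 * u = 7 * u + 7 * u by ring, exp_add]; ring
    refine ⟨11 / 5 * u, le_rfl, key (3 * Λ * m0) _ le_rfl (Nat.le_mul_of_pos_right _ hm1) ?_ ?_ ?_⟩
    · have : 36 * exp (14 * u) ≤ exp (20 * u) := const_mul_exp_le (by linarith)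
      linarith [exp_pos (20 * u)]
    · have : 72 * exp (14 * u) ≤ exp (7 * (11 / 5 * u)) := const_mul_exp_le (by linarith)
      linarith
    · rw [norm_mul]
      have e1 := norm_pow_mul_sub_one_le hα m0 (3 * Λ)
      calc ‖c‖ * ‖α ^ (3 * Λ * m0) - 1‖ ≤
            exp (-(10 * u)) * (3 * (2 * exp (7 * u)) * (7 * exp (-(20 * u)))) := by
            gcongr
            refine e1.trans ?_
            push_cast
            gcongr
        _ = 42 * exp (-(23 * u)) := by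
            rw [show -(23 * u) = -(10 * u) + 7 * u + -(20 * u) by ring, exp_add, exp_add]; ring
        _ ≤ _ := const_mul_exp_le (by linarith)

theorem Good.iterate {β : ℝ} {α : ℂ} {a0 u0 σ0 σ1 E0 : ℝ} (hβ : 3 / 2 ≤ β) (hα : ‖α‖ = 1)
    (h : Good β α a0 u0 σ0 E0) (hu : 100 ≤ u0) (hσ : σ0 + 2 * exp (-u0) ≤ σ1)
    (hσ1 : σ1 ≤ 1 / 2) (κ U : ℝ) (hκ : 0 < κ) :
    ∃ u E, U ≤ u ∧ E + 29 ≤ κ * u ∧ Good β α a0 u σ1 E := by
  set K := |E0| + 29 with hK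
  have hKpos : 0 < K := by positivity
  have main : ∀ r : ℕ, ∃ u σ E, 100 ≤ u ∧ (r : ℝ) ≤ u ∧ σ + 2 * exp (-u) ≤ σ1 ∧
      E + 29 ≤ K * (10 / 11) ^ r * u ∧ Good β α a0 u σ E := by
    intro r
    induction r with
    | zero =>
      refine ⟨u0, σ0, E0, hu, by simp; linarith, hσ, ?_, h⟩
      have := le_abs_self E0
      simp only [pow_zero, mul_one]
      nlinarith
    | succ r ih =>
      obtain ⟨u, σ, E, h1, h2, h3, h4, h5⟩ := ih
      obtain ⟨u', h6, h7⟩ := h5.step hβ hα h1 (by linarith [exp_pos (-u)])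
      refine ⟨u', _, _, by linarith, by push_cast; linarith, ?_, ?_, h7⟩
      · have e1 : 2 * exp (-u') ≤ exp (-u) := const_mul_exp_le (by linarith)
        linarith
      · have e1 : 0 < K * (10 / 11) ^ r := by positivity
        calc 2 * E + 29 + 29 = 2 * (E + 29) := by ring
          _ ≤ 2 * (K * (10 / 11) ^ r * u) := by linarith
          _ = K * (10 / 11) ^ r * (10 / 11) * (11 / 5 * u) := by ring
          _ ≤ K * (10 / 11) ^ r * (10 / 11) * u' := by gcongr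
          _ = _ := by ring
  obtain ⟨r1, hr1⟩ := exists_pow_lt_of_lt_one (div_pos hκ hKpos) (by norm_num : (10 / 11 : ℝ) < 1)
  obtain ⟨r2, hr2⟩ := exists_nat_ge U
  obtain ⟨u, σ, E, h1, h2, h3, h4, h5⟩ := main (max r1 r2)
  refine ⟨u, E, ?_, ?_, h5.mono (by linarith [exp_pos (-u)]) le_rfl⟩
  · have : (r2 : ℝ) ≤ (max r1 r2 : ℕ) := by exact_mod_cast le_max_right _ _
    linarith
  · refine h4.trans ?_
    have e1 : (10 / 11 : ℝ) ^ (max r1 r2) ≤ (10 / 11) ^ r1 :=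
      pow_le_pow_of_le_one (by norm_num) (by norm_num) (le_max_left _ _)
    have e2 : K * (10 / 11) ^ (max r1 r2) ≤ κ := by
      rw [lt_div_iff₀ hKpos] at hr1
      nlinarith
    gcongr

/-- From a base profile with empty window to a good profile at a large scale. -/
theorem Prof.base {β : ℝ} {α : ℂ} {x : ℤ → ℝ} {a b : ℝ} {c : ℂ} {σ0 σ1 E : ℝ}
    (hβ : 3 / 2 ≤ β) (hα : ‖α‖ = 1) (h : Prof β α x a b c 0 σ0 E) (hc : ‖c‖ ≤ 1)
    (h01 : σ0 < σ1) (hσ1 : σ1 ≤ 1 / 2) :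
    ∃ u σ E', 100 ≤ u ∧ σ + 2 * exp (-u) ≤ σ1 ∧ Good β α a u σ E' := by
  obtain ⟨v, hv1, hv2⟩ : ∃ v : ℝ, 1000 ≤ v ∧ 8 * exp (-v) ≤ σ1 - σ0 := by
    refine ⟨max 1000 (8 / (σ1 - σ0)), le_max_left _ _, ?_⟩
    have e1 := le_max_right 1000 (8 / (σ1 - σ0))
    have e2 := add_one_le_exp (max 1000 (8 / (σ1 - σ0)))
    have e3 : 8 / (σ1 - σ0) ≤ exp (max 1000 (8 / (σ1 - σ0))) := by linarith
    rw [div_le_iff₀ (by linarith)] at e3
    rw [exp_neg, ← div_eq_mul_inv, div_le_iff₀ (exp_pos _)]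
    linarith
  set g := ⌈exp v⌉₊ with hg
  set Q := ⌈exp (12 * v)⌉₊ with hQ
  have hg1 : exp v ≤ g := Nat.le_ceil _
  have hg2 : (g : ℝ) ≤ 2 * exp v := ceil_le_two_mul (one_le_exp (by linarith))
  have hQ1 : exp (12 * v) ≤ Q := Nat.le_ceil _
  have hQ2 : (Q : ℝ) ≤ 2 * exp (12 * v) := ceil_le_two_mul (one_le_exp (by linarith))
  have hgpos : 1 ≤ g := Nat.ceil_pos.2 (exp_pos _)
  have hQpos : 0 < Q := Nat.ceil_pos.2 (exp_pos _)
  obtain ⟨m0, hm1, hm2, hm3⟩ := dirichlet_unit hα Q hQpos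
  have hm4 : ‖α ^ m0 - 1‖ ≤ 7 * exp (-(12 * v)) := by
    refine hm3.trans ?_
    rw [exp_neg, ← div_eq_mul_inv]
    gcongr
  have hlam : β⁻¹ ^ g ≤ 2 * exp (-v) := by
    rw [exp_neg, ← div_eq_mul_inv]
    exact inv_pow_le hβ g _ (exp_pos _) hg1
  set m := 2 * g * m0 with hm
  have hmg : 2 * g ≤ m := Nat.le_mul_of_pos_right _ hm1
  have hη1 : ‖α ^ m - 1‖ ≤ 28 * exp (-(11 * v)) := by
    refine (norm_pow_mul_sub_one_le hα m0 (2 * g)).trans ?_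
    push_cast
    calc 2 * (g : ℝ) * ‖α ^ m0 - 1‖ ≤ 2 * (2 * exp v) * (7 * exp (-(12 * v))) := by gcongr
      _ = 28 * exp (-(11 * v)) := by
        rw [show -(11 * v) = v + -(12 * v) by ring, exp_add]; ring
  have hη2 : ‖α ^ (2 * m) - 1‖ ≤ 56 * exp (-(11 * v)) := by
    refine (norm_pow_mul_sub_one_le hα m 2).trans ?_
    push_cast; linarith
  have hc1 : ‖c * (α ^ m - 1)‖ ≤ 28 * exp (-(11 * v)) := by
    rw [norm_mul]
    exact (mul_le_of_le_one_left (norm_nonneg _) hc).trans hη1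
  have hc2 : ‖c * (α ^ m - 1) * (α ^ (2 * m) - 1)‖ ≤ exp (-(10 * (2 * v))) := by
    rw [norm_mul]
    calc _ ≤ 28 * exp (-(11 * v)) * (56 * exp (-(11 * v))) := by gcongr
      _ = 1568 * exp (-(22 * v)) := by
        rw [show -(22 * v) = -(11 * v) + -(11 * v) by ring, exp_add]; ring
      _ ≤ _ := const_mul_exp_le (by linarith)
  have e1 : 56 * exp (-(11 * v)) ≤ exp (-v) := const_mul_exp_le (by linarith)
  have e2 : 2 * exp (-(10 * (2 * v))) ≤ exp (-v) := const_mul_exp_le (by linarith)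
  have e3 : exp (-(2 * v)) ≤ exp (-v) := exp_le_exp.2 (by linarith)
  have e4 := exp_pos (-v)
  obtain ⟨x1, a1, b1, ha1, hP1⟩ := h.step hβ hα (by linarith) g m hgpos (by omega)
  obtain ⟨x2, a2, b2, ha2, hP2⟩ := hP1.step hβ hα (by linarith) g (2 * m) hgpos (by omega)
  refine ⟨2 * v, _, _, by linarith, ?_, x2, a2, b2, _, _, hP2, ha1.trans ha2, ?_, hc2⟩
  · linarith
  · have : (m : ℝ) ≤ 8 * exp (13 * v) := by
      rw [hm]; push_cast
      have : (m0 : ℝ) ≤ 2 * exp (12 * v) := le_trans (by exact_mod_cast hm2) hQ2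
      calc 2 * (g : ℝ) * m0 ≤ 2 * (2 * exp v) * (2 * exp (12 * v)) := by gcongr
        _ = 8 * exp (13 * v) := by
          rw [show 13 * v = v + 12 * v by ring, exp_add]; ring
    have e5 : 24 * exp (13 * v) ≤ exp (7 * (2 * v)) := const_mul_exp_le (by linarith)
    push_cast; linarith

end Vale.Agent.P105
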