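import Mathlib
import Vale.Agent.P105.Defs
import Vale.Agent.P105.Criterion
import Vale.Agent.P105.CharFun
import Vale.Agent.P105.Iterate

open Finset Real MeasureTheory Filter
open scoped Topology

namespace Vale.Agent.P105

theorem cos_lower {σ y : ℝ} (hσ : σ < 1 / 2) (hy : |y| ≤ σ) : cos (π * σ) ≤ cos (π * y) := by
  rw [← cos_abs (π * y), abs_mul, abs_of_pos pi_pos]
  refine cos_le_cos_of_nonneg_of_le_pi (by positivity) ?_ (by gcongr)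
  nlinarith [pi_pos]

theorem cos_sigma_pos {σ : ℝ} (h0 : 0 ≤ σ) (hσ : σ < 1 / 2) : 0 < cos (π * σ) :=
  cos_pos_of_mem_Ioo ⟨by nlinarith [pi_pos], by nlinarith [pi_pos]⟩

theorem exp_le_cos {σ y : ℝ} (hσ : σ < 1 / 2) (hy : |y| ≤ σ) :
    exp (-(π ^ 2 / (2 * cos (π * σ)) * y ^ 2)) ≤ cos (π * y) := by
  have h0 : 0 ≤ σ := (abs_nonneg _).trans hy
  have h1 := cos_sigma_pos h0 hσ
  have h2 := cos_lower hσ hy
  have h3 : 1 - (π * y) ^ 2 / 2 ≤ cos (π * y) := one_sub_sq_div_two_le_cos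
  have h4 : 0 < cos (π * y) := by linarith
  rw [exp_neg, inv_le_comm₀ (exp_pos _) h4]
  refine le_trans ?_ (add_one_le_exp _)
  have h5 : (cos (π * y))⁻¹ = (1 - cos (π * y)) / cos (π * y) + 1 := by field_simp; ring
  rw [h5]
  have h6 : π ^ 2 / (2 * cos (π * σ)) * y ^ 2 = ((π * y) ^ 2 / 2) / cos (π * σ) := by
    field_simp
  rw [h6]
  gcongr
  linarith

theorem abs_cos_sub_le {σ y z : ℝ} (hσ : σ < 1 / 2) (hy : |y| ≤ σ) (hz : |z| ≤ σ) :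
    |cos (π * y - π * z)| ≤
      exp (π ^ 2 / cos (π * σ) ^ 2 * (|y| * |z|)) * (cos (π * y) * cos (π * z)) := by
  have h0 : 0 ≤ σ := (abs_nonneg _).trans hy
  have h1 := cos_sigma_pos h0 hσ
  have h2 := cos_lower hσ hy
  have h3 := cos_lower hσ hz
  have h4 : 0 < cos (π * y) := by linarith
  have h5 : 0 < cos (π * z) := by linarith
  have h6 : |sin (π * y)| ≤ π * |y| := by
    have := abs_sin_le_abs (x := π * y)
    rwa [abs_mul, abs_of_pos pi_pos] at this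
  have h7 : |sin (π * z)| ≤ π * |z| := by
    have := abs_sin_le_abs (x := π * z)
    rwa [abs_mul, abs_of_pos pi_pos] at this
  rw [cos_sub]
  refine (abs_add_le _ _).trans ?_
  rw [abs_of_pos (mul_pos h4 h5), abs_mul]
  have h8 : |sin (π * y)| * |sin (π * z)| ≤ π ^ 2 * (|y| * |z|) := by
    calc _ ≤ (π * |y|) * (π * |z|) := by gcongr
      _ = _ := by ring
  have h9 : π ^ 2 * (|y| * |z|) ≤
      π ^ 2 / cos (π * σ) ^ 2 * (|y| * |z|) * (cos (π * y) * cos (π * z)) := by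
    calc π ^ 2 * (|y| * |z|)
        = π ^ 2 / cos (π * σ) ^ 2 * (|y| * |z|) * (cos (π * σ) * cos (π * σ)) := by field_simp
      _ ≤ _ := by gcongr
  have h10 := mul_le_mul_of_nonneg_right
    (add_one_le_exp (π ^ 2 / cos (π * σ) ^ 2 * (|y| * |z|))) (mul_pos h4 h5).le
  linarith

section
variable {β : ℝ} {α : ℂ} {x : ℤ → ℝ} {a b : ℝ} {c : ℂ} {L : ℕ} {σ E : ℝ}

theorem Prof.phase (hβ : 3 / 2 ≤ β) (h : Prof β α x a b c L σ E) (n i : ℕ) :
    ∃ u : ℤ, π * a * β ^ n * β⁻¹ ^ i = π * x ((n : ℤ) - i) - u * π := by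
  obtain ⟨u, hu⟩ := h.int ((n : ℤ) - i)
  have hβ0 : β ≠ 0 := by linarith
  refine ⟨u, ?_⟩
  rw [hu, zpow_sub₀ hβ0, zpow_natCast, zpow_natCast, inv_pow]
  field_simp
  ring

theorem Prof.abs_cos (hβ : 3 / 2 ≤ β) (h : Prof β α x a b c L σ E) (hσ : σ < 1 / 2) (n i : ℕ) :
    |cos (π * a * β ^ n * β⁻¹ ^ i)| = cos (π * x ((n : ℤ) - i)) := by
  obtain ⟨u, hu⟩ := h.phase hβ n i
  have h0 : 0 ≤ σ := (abs_nonneg _).trans (h.sup 0)
  rw [hu, cos_sub_int_mul_pi, abs_mul, abs_neg_one_zpow, one_mul, abs_of_pos]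
  exact lt_of_lt_of_le (cos_sigma_pos h0 hσ) (cos_lower hσ (h.sup _))

theorem Prof.charFun_lower (hβ : 3 / 2 ≤ β) (h : Prof β α x a b c L σ E) (hσ : σ < 1 / 2)
    (n N : ℕ) (hn : n < N) (F : ℝ) (hF : SB (fun k => if k < (N : ℤ) then x k ^ 2 else 0) F) :
    exp (-(π ^ 2 / (2 * cos (π * σ)) * F)) ≤ ‖charFun (bernoulliConv β⁻¹) (π * a * β ^ n)‖ := by
  have hl0 : 0 ≤ β⁻¹ := by positivity
  have hl1 : β⁻¹ < 1 := (inv_le_of hβ).trans_lt (by norm_num)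
  have h0 : 0 ≤ σ := (abs_nonneg _).trans (h.sup 0)
  have h1 := cos_sigma_pos h0 hσ
  refine ge_of_tendsto' (tendsto_charFun hl0 hl1 _) fun M => ?_
  simp_rw [h.abs_cos hβ hσ]
  calc exp (-(π ^ 2 / (2 * cos (π * σ)) * F))
      ≤ exp (∑ i ∈ range M, -(π ^ 2 / (2 * cos (π * σ)) * x ((n : ℤ) - i) ^ 2)) := by
        rw [exp_le_exp, sum_neg_distrib, ← mul_sum, neg_le_neg_iff]
        refine mul_le_mul_of_nonneg_left ?_ (by positivity)
        refine le_of_eq_of_le (sum_congr rfl fun i _ => ?_) (hF n M)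
        beta_reduce
        rw [if_pos (by omega)]
    _ ≤ _ := by
        rw [exp_sum]
        exact prod_le_prod (fun i _ => (exp_pos _).le) fun i _ => exp_le_cos hσ (h.sup _)

theorem Prof.charFun_cross (hβ : 3 / 2 ≤ β) (h : Prof β α x a b c L σ E) (hσ : σ < 1 / 2)
    (n D N : ℕ) (hn : n < N) (F : ℝ)
    (hF : SB (fun k => if k < (N : ℤ) then |x k| * |x (k + D)| else 0) F) :
    ‖charFun (bernoulliConv β⁻¹) (π * a * β ^ n - π * a * β ^ (n + D))‖ ≤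
      exp (π ^ 2 / cos (π * σ) ^ 2 * F) * (‖charFun (bernoulliConv β⁻¹) (π * a * β ^ n)‖ *
        ‖charFun (bernoulliConv β⁻¹) (π * a * β ^ (n + D))‖) := by
  have hl0 : 0 ≤ β⁻¹ := by positivity
  have hl1 : β⁻¹ < 1 := (inv_le_of hβ).trans_lt (by norm_num)
  have h0 : 0 ≤ σ := (abs_nonneg _).trans (h.sup 0)
  have h1 := cos_sigma_pos h0 hσ
  refine le_of_tendsto_of_tendsto' (tendsto_charFun hl0 hl1 _)
    (((tendsto_charFun hl0 hl1 _).mul (tendsto_charFun hl0 hl1 _)).const_mul _) fun M => ?_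
  simp_rw [h.abs_cos hβ hσ]
  have hpos : ∀ k, 0 < cos (π * x k) := fun k => lt_of_lt_of_le h1 (cos_lower hσ (h.sup _))
  calc ∏ i ∈ range M, |cos ((π * a * β ^ n - π * a * β ^ (n + D)) * β⁻¹ ^ i)|
      ≤ ∏ i ∈ range M, (exp (π ^ 2 / cos (π * σ) ^ 2 *
          (|x ((n : ℤ) - i)| * |x (((n + D : ℕ) : ℤ) - i)|)) *
          (cos (π * x ((n : ℤ) - i)) * cos (π * x (((n + D : ℕ) : ℤ) - i)))) := by
        refine prod_le_prod (fun i _ => abs_nonneg _) fun i _ => ?_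
        obtain ⟨u, hu⟩ := h.phase hβ n i
        obtain ⟨v, hv⟩ := h.phase hβ (n + D) i
        have : (π * a * β ^ n - π * a * β ^ (n + D)) * β⁻¹ ^ i =
            (π * x ((n : ℤ) - i) - π * x (((n + D : ℕ) : ℤ) - i)) - ((u - v : ℤ) : ℝ) * π := by
          rw [sub_mul, hu, hv]; push_cast; ring
        rw [this, cos_sub_int_mul_pi, abs_mul, abs_neg_one_zpow, one_mul]
        exact abs_cos_sub_le hσ (h.sup _) (h.sup _)
    _ ≤ _ := by
        rw [prod_mul_distrib, prod_mul_distrib, ← exp_sum, ← mul_sum]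
        refine mul_le_mul_of_nonneg_right (exp_le_exp.2 ?_)
          (mul_nonneg (prod_nonneg fun i _ => (hpos _).le) (prod_nonneg fun i _ => (hpos _).le))
        refine mul_le_mul_of_nonneg_left ?_ (by positivity)
        refine le_of_eq_of_le (sum_congr rfl fun i _ => ?_) (hF n M)
        beta_reduce
        rw [if_pos (by omega)]
        congr 3
        push_cast; ring

end

theorem separation {β a : ℝ} (hβ : 3 / 2 ≤ β) (hap : 0 < a) (J Λ n D : ℕ) (hJ : 1 ≤ J)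
    (haΛ : 1 ≤ a * Λ) (hn : J * (3 * Λ) ≤ n) (hD : 2 ≤ D) :
    (J : ℝ) ≤ (π * a * β ^ n - π * a * β ^ (n + D)) ^ 2 := by
  have hβD : 2 ≤ β ^ D := by
    calc (2 : ℝ) ≤ (3 / 2) ^ 2 := by norm_num
      _ ≤ β ^ 2 := by gcongr
      _ ≤ β ^ D := pow_le_pow_right₀ (by linarith) hD
  have hβn : (J : ℝ) * Λ ≤ β ^ n := by
    have f1 : 1 + (n : ℝ) * (1 / 2) ≤ (1 + 1 / 2) ^ n := one_add_mul_le_pow (by norm_num) n
    have f2 : ((1 : ℝ) + 1 / 2) ^ n ≤ β ^ n := by gcongr; linarith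
    have f3 : (J : ℝ) * (3 * Λ) ≤ n := by exact_mod_cast hn
    have f4 : (0 : ℝ) ≤ J * Λ := by positivity
    linarith
  have hJ' : (1 : ℝ) ≤ J := by exact_mod_cast hJ
  have f5 : (J : ℝ) ≤ π * a * β ^ n * (β ^ D - 1) := by
    calc (J : ℝ) = 1 * (J * 1) * 1 := by ring
      _ ≤ π * (J * (a * Λ)) * (β ^ D - 1) := by
        gcongr
        · linarith [pi_gt_three]
        · linarith
      _ = π * a * (J * Λ) * (β ^ D - 1) := by ring
      _ ≤ _ := by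
        gcongr
        linarith
  calc (J : ℝ) ≤ J ^ 2 := by nlinarith
    _ ≤ (π * a * β ^ n * (β ^ D - 1)) ^ 2 := by gcongr
    _ = _ := by rw [pow_add]; ring

theorem eta_small {β u r L Λ N : ℝ} {g : ℕ} (hβ : 3 / 2 ≤ β) (hu : 100 ≤ u) (_hr0 : 0 ≤ r)
    (hr : r ≤ exp (-(10 * u))) (hL0 : 0 ≤ L) (hΛ0 : 0 ≤ Λ) (hL : L ≤ exp (7 * u))
    (hg : exp (7 * u) ≤ g)
    (hΛ : Λ ≤ 2 * exp (7 * u)) (hN : r ^ 2 * N ≤ 24 * exp (-(8 * u))) :
    12 * β⁻¹ ^ g + r * (L + Λ + 6) + r ^ 2 * N ≤ exp (-u) := by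
  have hlam : β⁻¹ ^ g ≤ 2 * exp (-(7 * u)) := by
    rw [exp_neg, ← div_eq_mul_inv]
    exact inv_pow_le hβ g _ (exp_pos _) hg
  have f1 : r * (L + Λ + 6) ≤ 9 * exp (-(3 * u)) := by
    have : (6 : ℝ) ≤ 6 * exp (7 * u) := by linarith [one_le_exp (by linarith : 0 ≤ 7 * u)]
    calc r * (L + Λ + 6) ≤ exp (-(10 * u)) * (9 * exp (7 * u)) := by
          gcongr; linarith
      _ = 9 * exp (-(3 * u)) := by
        rw [show -(3 * u) = -(10 * u) + 7 * u by ring, exp_add]; ring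
  have f2 : exp (-(7 * u)) ≤ exp (-(3 * u)) := exp_le_exp.2 (by linarith)
  have f3 : exp (-(8 * u)) ≤ exp (-(3 * u)) := exp_le_exp.2 (by linarith)
  have f4 : 57 * exp (-(3 * u)) ≤ exp (-u) := const_mul_exp_le (by linarith)
  linarith

theorem Good.criterion {β : ℝ} {α : ℂ} {a0 u σ E ε : ℝ}
    (hβ : 3 / 2 ≤ β) (hα : ‖α‖ = 1) (hσ : σ < 1 / 2) (hG : Good β α a0 u σ E)
    (hu : 100 ≤ u) (hε : 0 < ε) (huε : 1 ≤ ε * exp (3 * u))
    (huK : π ^ 2 / cos (π * σ) ^ 2 * exp (-u) ≤ log (1 + ε))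
    (hua : 1 ≤ a0 * exp (7 * u))
    (hE : π ^ 2 / (2 * cos (π * σ)) * (E + 13) ≤ u) :
    ∃ (J : ℕ) (t : ℕ → ℝ) (m : ℝ), 0 < m ∧ 1 ≤ ε * J * m ^ 2 ∧
      (∀ j < J, m ≤ ‖charFun (bernoulliConv β⁻¹) (t j)‖) ∧
      (∀ j < J, ∀ l < J, j ≠ l → (J : ℝ) ≤ (t j - t l) ^ 2 ∧
        ‖charFun (bernoulliConv β⁻¹) (t j - t l)‖ ≤
          (1 + ε) * (‖charFun (bernoulliConv β⁻¹) (t j)‖ *
            ‖charFun (bernoulliConv β⁻¹) (t l)‖)) := by
  obtain ⟨x, a, b, c, L, hP, ha, hL, hcu⟩ := hG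
  have h0 : 0 ≤ σ := (abs_nonneg _).trans (hP.sup 0)
  have h1 : 0 < cos (π * σ) := cos_sigma_pos h0 hσ
  obtain ⟨Λ, hΛpos, hΛ1, hΛ2⟩ : ∃ Λ : ℕ, 1 ≤ Λ ∧ exp (7 * u) ≤ Λ ∧ (Λ : ℝ) ≤ 2 * exp (7 * u) :=
    ⟨⌈exp (7 * u)⌉₊, Nat.ceil_pos.2 (exp_pos _), Nat.le_ceil _,
      ceil_le_two_mul (one_le_exp (by linarith))⟩
  obtain ⟨J, hJpos, hJ1, hJ2⟩ : ∃ J : ℕ, 1 ≤ J ∧ exp (5 * u) ≤ J ∧ (J : ℝ) ≤ 2 * exp (5 * u) :=
    ⟨⌈exp (5 * u)⌉₊, Nat.ceil_pos.2 (exp_pos _), Nat.le_ceil _,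
      ceil_le_two_mul (one_le_exp (by linarith))⟩
  have hLΛ : L ≤ Λ := by exact_mod_cast hL.trans hΛ1
  obtain ⟨N, hN⟩ : ∃ N, N = 2 * J * (3 * Λ) := ⟨_, rfl⟩
  have hN1 : (N : ℝ) ≤ 24 * exp (12 * u) := by
    rw [hN]; push_cast
    calc 2 * (J : ℝ) * (3 * Λ) ≤ 2 * (2 * exp (5 * u)) * (3 * (2 * exp (7 * u))) := by gcongr
      _ = 24 * exp (12 * u) := by rw [show 12 * u = 5 * u + 7 * u by ring, exp_add]; ring
  have hc2 : ‖c‖ ^ 2 ≤ exp (-(20 * u)) := by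
    calc ‖c‖ ^ 2 ≤ exp (-(10 * u)) ^ 2 := by gcongr
      _ = exp (-(20 * u)) := by rw [← exp_nat_mul]; congr 1; push_cast; ring
  have hcN : ‖c‖ ^ 2 * N ≤ 24 * exp (-(8 * u)) := by
    calc ‖c‖ ^ 2 * N ≤ exp (-(20 * u)) * (24 * exp (12 * u)) := by gcongr
      _ = 24 * exp (-(8 * u)) := by
        rw [show -(8 * u) = -(20 * u) + 12 * u by ring, exp_add]; ring
  have hnN : ∀ j < J, (J + j) * (3 * Λ) < N := by
    intro j hj
    rw [hN]
    exact Nat.mul_lt_mul_of_pos_right (by omega) (by omega)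
  have hap := hP.apos
  have haΛ : 1 ≤ a * Λ := hua.trans (by gcongr)
  have hcross : ∀ j l : ℕ, j < l → l < J →
      (J : ℝ) ≤ (π * a * β ^ ((J + j) * (3 * Λ)) - π * a * β ^ ((J + l) * (3 * Λ))) ^ 2 ∧
      ‖charFun (bernoulliConv β⁻¹)
        (π * a * β ^ ((J + j) * (3 * Λ)) - π * a * β ^ ((J + l) * (3 * Λ)))‖ ≤
        (1 + ε) * (‖charFun (bernoulliConv β⁻¹) (π * a * β ^ ((J + j) * (3 * Λ)))‖ *
          ‖charFun (bernoulliConv β⁻¹) (π * a * β ^ ((J + l) * (3 * Λ)))‖) := by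
    intro j l hjl hl
    obtain ⟨d, rfl⟩ : ∃ d, l = j + (d + 1) := ⟨l - j - 1, by omega⟩
    have e1 : (J + (j + (d + 1))) * (3 * Λ) = (J + j) * (3 * Λ) + (d + 1) * (3 * Λ) := by ring
    have e2 : 3 * Λ ≤ (d + 1) * (3 * Λ) := Nat.le_mul_of_pos_left _ (by omega)
    rw [e1]
    constructor
    · exact separation hβ hap J Λ _ _ hJpos haΛ (Nat.mul_le_mul_right _ (by omega)) (by omega)
    · refine (hP.charFun_cross hβ hσ _ _ N (hnN j (by omega)) _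
        (hP.cross hβ hα hσ.le Λ _ N (by omega))).trans ?_
      refine mul_le_mul_of_nonneg_right ?_ (by positivity)
      have f5 := eta_small hβ hu (norm_nonneg c) hcu (Nat.cast_nonneg L) (Nat.cast_nonneg Λ)
        hL hΛ1 hΛ2 hcN
      rw [← exp_log (by linarith : 0 < 1 + ε), exp_le_exp]
      exact (mul_le_mul_of_nonneg_left f5 (by positivity)).trans huK
  refine ⟨J, fun j => π * a * β ^ ((J + j) * (3 * Λ)), exp (-u), exp_pos _, ?_, ?_, ?_⟩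
  · have f1 : exp (5 * u) * exp (-u) ^ 2 = exp (3 * u) := by
      rw [← exp_nat_mul, ← exp_add]; congr 1; push_cast; ring
    calc 1 ≤ ε * (exp (5 * u) * exp (-u) ^ 2) := by rw [f1]; exact huε
      _ ≤ ε * (J * exp (-u) ^ 2) := by gcongr
      _ = _ := by ring
  · intro j hj
    refine le_trans ?_ (hP.charFun_lower hβ hσ _ N (hnN j hj) _ (hP.energy hβ hα N))
    rw [exp_le_exp, neg_le_neg_iff]
    have f1 : 48 * exp (-(8 * u)) ≤ exp 0 := const_mul_exp_le (by linarith)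
    rw [exp_zero] at f1
    have f2 : E + 12 + 2 * ‖c‖ ^ 2 * N ≤ E + 13 := by linarith
    exact (mul_le_mul_of_nonneg_left f2 (by positivity)).trans hE
  · intro j hj l hl hjl
    rcases lt_or_gt_of_ne hjl with hlt | hlt
    · exact hcross j l hlt hl
    · obtain ⟨f1, f2⟩ := hcross l j hlt hj
      constructor
      · refine f1.trans (le_of_eq ?_); ring
      · rw [← neg_sub, charFun_neg, Complex.norm_conj, mul_comm ‖_‖]
        exact f2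

theorem singular_of_prof {β : ℝ} {α : ℂ} {x0 : ℤ → ℝ} {a0 b0 : ℝ} {c0 : ℂ} {σ0 E0 : ℝ}
    (hβ : 3 / 2 ≤ β) (hα : ‖α‖ = 1) (h : Prof β α x0 a0 b0 c0 0 σ0 E0) (hc : ‖c0‖ ≤ 1)
    (hσ0 : σ0 < 1 / 2) : IsSingular (bernoulliConv β⁻¹) := by
  have hl0 : 0 ≤ β⁻¹ := by positivity
  have hl1 : β⁻¹ < 1 := (inv_le_of hβ).trans_lt (by norm_num)
  have := bernoulliConv_prob hl0 hl1
  have ha0 := h.apos
  obtain ⟨σ, hσdef⟩ : ∃ σ, σ = (σ0 + 1 / 2) / 2 := ⟨_, rfl⟩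
  have hσ : σ < 1 / 2 := by linarith
  have h0 : 0 ≤ σ0 := (abs_nonneg _).trans (h.sup 0)
  have h1 : 0 < cos (π * σ) := cos_sigma_pos (by linarith) hσ
  obtain ⟨u0, σ', E', hu0, hσ', hG⟩ := h.base hβ hα hc (σ1 := σ) (by linarith) hσ.le
  refine singular_of_charFun _ fun ε hε => ?_
  obtain ⟨C, hC⟩ : ∃ C, C = π ^ 2 / (2 * cos (π * σ)) := ⟨_, rfl⟩
  obtain ⟨K, hK⟩ : ∃ K, K = π ^ 2 / cos (π * σ) ^ 2 := ⟨_, rfl⟩
  have hCpos : 0 < C := by rw [hC]; positivity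
  have hKpos : 0 < K := by rw [hK]; positivity
  have hℓ : 0 < log (1 + ε) := log_pos (by linarith)
  obtain ⟨u, E, hU, hE, hG'⟩ := hG.iterate hβ hα hu0 hσ' hσ.le (1 / C)
    (100 + 1 / ε + K / log (1 + ε) + 1 / a0) (by positivity)
  have p1 : 0 < 1 / ε := by positivity
  have p2 : 0 < K / log (1 + ε) := by positivity
  have p3 : 0 < 1 / a0 := by positivity
  have hu : 100 ≤ u := by linarith
  refine hG'.criterion hβ hα hσ hu hε ?_ ?_ ?_ ?_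
  · have f2 : 1 / ε ≤ exp (3 * u) := by linarith [add_one_le_exp (3 * u)]
    rw [div_le_iff₀ hε] at f2
    linarith
  · rw [← hK]
    have g1 : K / log (1 + ε) ≤ exp u := by linarith [add_one_le_exp u]
    rw [div_le_iff₀ hℓ] at g1
    rw [exp_neg, ← div_eq_mul_inv, div_le_iff₀ (exp_pos _)]
    linarith
  · have f2 : 1 / a0 ≤ exp (7 * u) := by linarith [add_one_le_exp (7 * u)]
    rw [div_le_iff₀ ha0] at f2
    linarith
  · rw [← hC]
    calc C * (E + 13) ≤ C * (1 / C * u) := by gcongr; linarith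
      _ = u := by field_simp

end Vale.Agent.P105
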