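import Mathlib
import Vale.Agent.P105.Main

open Finset Real MeasureTheory Filter

namespace Vale.Agent.P105

theorem rec_zpow {F : Type*} [Field F] {z p q : F} (hz : z ≠ 0)
    (h : z ^ 4 - p * z ^ 3 + q * z ^ 2 - p * z + 1 = 0) (k : ℤ) :
    z ^ (k + 4) = p * z ^ (k + 3) - q * z ^ (k + 2) + p * z ^ (k + 1) - z ^ k := by
  rw [zpow_add₀ hz, zpow_add₀ hz, zpow_add₀ hz, zpow_add₀ hz]
  have e4 : z ^ (4 : ℤ) = z ^ 4 := by norm_cast
  have e3 : z ^ (3 : ℤ) = z ^ 3 := by norm_cast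
  have e2 : z ^ (2 : ℤ) = z ^ 2 := by norm_cast
  rw [e4, e3, e2, zpow_one]
  linear_combination z ^ k * h

theorem int_of_rec (v : ℤ → ℝ) (p q : ℤ)
    (hrec : ∀ k, v (k + 4) = p * v (k + 3) - q * v (k + 2) + p * v (k + 1) - v k)
    (h0 : ∃ u : ℤ, v (-1) = u) (h1 : ∃ u : ℤ, v 0 = u) (h2 : ∃ u : ℤ, v 1 = u)
    (h3 : ∃ u : ℤ, v 2 = u) (k : ℤ) : ∃ u : ℤ, v k = u := by
  have key : ∀ k : ℤ, (∃ u : ℤ, v k = u) ∧ (∃ u : ℤ, v (k + 1) = u) ∧
      (∃ u : ℤ, v (k + 2) = u) ∧ (∃ u : ℤ, v (k + 3) = u) := by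
    intro k
    refine Int.inductionOn' k (-1) ⟨h0, by simpa using h1, by simpa using h2, by simpa using h3⟩
      ?_ ?_
    · rintro k - ⟨⟨u0, e0⟩, ⟨u1, e1⟩, ⟨u2, e2⟩, ⟨u3, e3⟩⟩
      refine ⟨⟨u1, e1⟩, ⟨u2, by rw [← e2]; congr 1; ring⟩, ⟨u3, by rw [← e3]; congr 1; ring⟩,
        ⟨p * u3 - q * u2 + p * u1 - u0, ?_⟩⟩
      rw [show k + 1 + 3 = k + 4 by ring, hrec, e0, e1, e2, e3]
      push_cast; ring
    · rintro k - ⟨⟨u0, e0⟩, ⟨u1, e1⟩, ⟨u2, e2⟩, ⟨u3, e3⟩⟩
      refine ⟨⟨p * u2 - q * u1 + p * u0 - u3, ?_⟩, ⟨u0, by rw [← e0]; congr 1; ring⟩,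
        ⟨u1, by rw [← e1]; congr 1; ring⟩, ⟨u2, by rw [← e2]; congr 1; ring⟩⟩
      have := hrec (k - 1)
      rw [show k - 1 + 4 = k + 3 by ring, show k - 1 + 3 = k + 2 by ring,
        show k - 1 + 2 = k + 1 by ring, show k - 1 + 1 = k by ring, e0, e1, e2, e3] at this
      push_cast; linarith
  exact (key k).1

/-- the conjugate on the unit circle -/
noncomputable def unitRoot (y : ℝ) : ℂ := ⟨y / 2, √(1 - y ^ 2 / 4)⟩

theorem unitRoot_quad {y : ℝ} (hy : y ^ 2 < 4) : unitRoot y ^ 2 - y * unitRoot y + 1 = 0 := by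
  have hs : √(1 - y ^ 2 / 4) ^ 2 = 1 - y ^ 2 / 4 := sq_sqrt (by linarith)
  apply Complex.ext
  · simp [unitRoot, sq] at hs ⊢
    nlinarith
  · simp [unitRoot, sq]
    ring

theorem norm_unitRoot {y : ℝ} (hy : y ^ 2 < 4) : ‖unitRoot y‖ = 1 := by
  have hs : √(1 - y ^ 2 / 4) ^ 2 = 1 - y ^ 2 / 4 := sq_sqrt (by linarith)
  have : ‖unitRoot y‖ ^ 2 = 1 := by
    rw [Complex.sq_norm, Complex.normSq_apply]
    simp only [unitRoot]
    nlinarith
  exact (pow_eq_one_iff_of_nonneg (norm_nonneg _) two_ne_zero).1 this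

theorem unitRoot_quartic {y1 y2 : ℝ} {p r : ℤ} (hy : y2 ^ 2 < 4) (hp : y1 + y2 = p)
    (hr : y1 * y2 = r) :
    unitRoot y2 ^ 4 - (p : ℂ) * unitRoot y2 ^ 3 + ((r + 2 : ℤ) : ℂ) * unitRoot y2 ^ 2
      - (p : ℂ) * unitRoot y2 + 1 = 0 := by
  have h := unitRoot_quad hy
  have hp' : (p : ℂ) = (y1 : ℂ) + y2 := by exact_mod_cast hp.symm
  have hr' : (r : ℂ) = (y1 : ℂ) * y2 := by exact_mod_cast hr.symm
  push_cast
  rw [hp', hr']
  linear_combination (unitRoot y2 ^ 2 - y1 * unitRoot y2 + 1) * h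

theorem prof_of_base {β A R : ℝ} {α c : ℂ} (hβ : 3 / 2 ≤ β) (hαn : ‖α‖ = 1) (hcn : ‖c‖ = R)
    (hApos : 0 < A) (hAβ : A * β < 1 / 2) (w0 : osc α c 0 = 0)
    (w1 : osc α c 1 = -(A * (β - β⁻¹))) (wm1 : osc α c (-1) = A * (β - β⁻¹))
    (hint : ∀ k : ℤ, ∃ u : ℤ, A * β ^ k - A * β ^ (-k) + osc α c k = u) :
    Prof β α (fun k => if k ≤ 0 then A * β ^ k else A * β ^ (-k) - osc α c k) A A c 0
      (max (A * β) (A * β⁻¹ ^ 2 + R)) 6 := by
  have hβ0 : 0 < β := by linarith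
  have hl := inv_le_of hβ
  have hl0 : 0 < β⁻¹ := by positivity
  have hAle : A ≤ A * β := by nlinarith
  have hgeo : ∀ k : ℤ, 0 ≤ geo β⁻¹ k := geo_nonneg hl0.le
  have hP : Prof β α (fun k => if k ≤ 0 then A * β ^ k else A * β ^ (-k) - osc α c k) A A c 0
      (max (A * β) (A * β⁻¹ ^ 2 + R)) 6 := by
    constructor
    · exact hApos
    · rw [pow_zero]; linarith
    · intro k
      split_ifs
      · exact ⟨0, by simp⟩
      · obtain ⟨u, hu⟩ := hint k
        exact ⟨-u, by push_cast; linarith⟩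
    · intro k hk
      rw [if_pos (by simpa using hk)]
    · rw [abs_of_pos hApos]; linarith
    · intro k hk
      split_ifs with h
      · obtain rfl : k = 0 := by omega
        simp [w0]
      · rfl
    · intro k
      split_ifs with h
      · refine le_trans ?_ (le_max_left _ _)
        rw [zpow_eq_geo_of_nonpos k h, abs_of_nonneg (mul_nonneg hApos.le (hgeo k))]
        nlinarith [geo_le_one hβ k]
      · by_cases h1 : k = 1
        · subst h1
          refine le_trans (le_of_eq ?_) (le_max_left _ _)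
          rw [w1, zpow_neg_one, show A * β⁻¹ - -(A * (β - β⁻¹)) = A * β by ring]
          exact abs_of_pos (by positivity)
        · refine le_trans ?_ (le_max_right _ _)
          refine (abs_sub _ _).trans (add_le_add ?_ ((abs_osc_le hαn c k).trans hcn.le))
          rw [zpow_neg_eq_geo_of_nonneg k (by omega),
            abs_of_nonneg (mul_nonneg hApos.le (hgeo k))]
          exact mul_le_mul_of_nonneg_left (geo_le_pow hβ k 2 (by omega)) hApos.le
    · intro k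
      split_ifs with h
      · by_cases h0 : k = 0
        · subst h0
          refine le_trans ?_ (le_max_left _ _)
          simp [w0, abs_of_pos hApos, hAle]
        · by_cases h1 : k = -1
          · subst h1
            refine le_trans (le_of_eq ?_) (le_max_left _ _)
            rw [wm1, zpow_neg_one, show A * β⁻¹ + A * (β - β⁻¹) = A * β by ring]
            exact abs_of_pos (by positivity)
          · refine le_trans ?_ (le_max_right _ _)
            refine (abs_add_le _ _).trans (add_le_add ?_ ((abs_osc_le hαn c k).trans hcn.le))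
            rw [zpow_eq_geo_of_nonpos k h, abs_of_nonneg (mul_nonneg hApos.le (hgeo k))]
            exact mul_le_mul_of_nonneg_left (geo_le_pow hβ k 2 (by omega)) hApos.le
      · refine le_trans ?_ (le_max_left _ _)
        rw [sub_add_cancel, zpow_neg_eq_geo_of_nonneg k (by omega),
          abs_of_nonneg (mul_nonneg hApos.le (hgeo k))]
        nlinarith [geo_le_one hβ k]
    · refine (SB_geo hl0.le hl).mono fun k => ?_
      split_ifs with h h'
      · rw [zpow_eq_geo_of_nonpos k h']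
        have e1 := geo_le_one hβ k
        have e2 := hgeo k
        have e3 : A * geo β⁻¹ k ≤ geo β⁻¹ k := by nlinarith
        have e4 : 0 ≤ A * geo β⁻¹ k := by positivity
        nlinarith
      · omega
      · exact hgeo k
  exact hP

theorem singular_of_quartic {β y1 y2 : ℝ} {p r : ℤ} (hβ : 3 / 2 ≤ β) (hy1 : β + β⁻¹ = y1)
    (hy : y2 ^ 2 < 4) (hp : y1 + y2 = p) (hr : y1 * y2 = r) (hD : 0 < y1 - y2)
    (h1 : 2 * β < (β - β⁻¹) * (y1 - y2))
    (h2 : β⁻¹ ^ 2 / ((β - β⁻¹) * (y1 - y2)) + 1 / ((y1 - y2) * √(1 - y2 ^ 2 / 4)) < 1 / 2) :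
    IsSingular (bernoulliConv β⁻¹) := by
  have hβ0 : 0 < β := by linarith
  have hl := inv_le_of hβ
  have hl0 : 0 < β⁻¹ := by positivity
  have hbl : 0 < β - β⁻¹ := by linarith
  have hs : 0 < √(1 - y2 ^ 2 / 4) := sqrt_pos.2 (by linarith)
  obtain ⟨A, hA⟩ : ∃ A, A = 1 / ((β - β⁻¹) * (y1 - y2)) := ⟨_, rfl⟩
  obtain ⟨R, hR⟩ : ∃ R, R = 1 / ((y1 - y2) * √(1 - y2 ^ 2 / 4)) := ⟨_, rfl⟩
  have hApos : 0 < A := by rw [hA]; positivity
  have hRpos : 0 < R := by rw [hR]; positivity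
  have hAβ : A * β < 1 / 2 := by
    rw [hA, div_mul_eq_mul_div, div_lt_iff₀ (by positivity)]; linarith
  have hAR : A * β⁻¹ ^ 2 + R < 1 / 2 := by
    rw [hA, hR, div_mul_eq_mul_div, one_mul]; exact h2
  have hA1 : A * (β - β⁻¹) * (y1 - y2) = 1 := by
    rw [hA, mul_assoc]; exact one_div_mul_cancel (by positivity)
  have hR1 : R * √(1 - y2 ^ 2 / 4) = A * (β - β⁻¹) := by
    have : R * √(1 - y2 ^ 2 / 4) * (y1 - y2) = 1 := by
      rw [hR, mul_assoc, mul_comm _ (y1 - y2)]; exact one_div_mul_cancel (by positivity)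
    exact mul_right_cancel₀ hD.ne' (this.trans hA1.symm)
  set α := unitRoot y2 with hα
  have hαn : ‖α‖ = 1 := norm_unitRoot hy
  have hα0 : α ≠ 0 := by intro h; rw [h] at hαn; simp at hαn
  have hαq : α ^ 2 - y2 * α + 1 = 0 := unitRoot_quad hy
  set c : ℂ := ⟨0, R⟩ with hc
  have hcn : ‖c‖ = R := by
    have : c = (R : ℂ) * Complex.I := by apply Complex.ext <;> simp [hc]
    rw [this]; simp [abs_of_pos hRpos]
  have w0 : osc α c 0 = 0 := by simp [osc, hc]
  have w1 : osc α c 1 = -(A * (β - β⁻¹)) := by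
    rw [← hR1]; simp [osc, hc, hα, unitRoot]
  have wm1 : osc α c (-1) = A * (β - β⁻¹) := by
    have : α⁻¹ = y2 - α := by
      rw [inv_eq_iff_eq_inv, eq_comm, inv_eq_iff_eq_inv, eq_comm]
      exact inv_eq_of_mul_eq_one_right (by linear_combination -hαq)
    rw [← hR1, osc, zpow_neg_one, this]; simp [hc, hα, unitRoot]
  have w2 : osc α c 2 = -(y2 * (A * (β - β⁻¹))) := by
    have : α ^ (2 : ℤ) = y2 * α - 1 := by
      rw [show α ^ (2 : ℤ) = α ^ 2 by norm_cast]; linear_combination hαq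
    rw [← hR1, osc, this]; simp [hc, hα, unitRoot]; ring
  have hββ : β * β⁻¹ = 1 := mul_inv_cancel₀ hβ0.ne'
  have hβq : β ^ 4 - (p : ℝ) * β ^ 3 + ((r + 2 : ℤ) : ℝ) * β ^ 2 - (p : ℝ) * β + 1 = 0 := by
    push_cast
    rw [← hp, ← hr]
    have : β ^ 2 - y1 * β + 1 = 0 := by rw [← hy1]; linear_combination -hββ
    linear_combination (β ^ 2 - y2 * β + 1) * this
  have hlq : β⁻¹ ^ 4 - (p : ℝ) * β⁻¹ ^ 3 + ((r + 2 : ℤ) : ℝ) * β⁻¹ ^ 2 - (p : ℝ) * β⁻¹ + 1 = 0 := by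
    push_cast
    rw [← hp, ← hr]
    have : β⁻¹ ^ 2 - y1 * β⁻¹ + 1 = 0 := by rw [← hy1]; linear_combination -hββ
    linear_combination (β⁻¹ ^ 2 - y2 * β⁻¹ + 1) * this
  have hint : ∀ k : ℤ, ∃ u : ℤ, A * β ^ k - A * β ^ (-k) + osc α c k = u := by
    refine int_of_rec (fun k => A * β ^ k - A * β ^ (-k) + osc α c k) p (r + 2) ?_ ?_ ?_ ?_ ?_
    · intro k
      have e1 := rec_zpow hβ0.ne' hβq k
      have e2 := rec_zpow hl0.ne' hlq k
      have e3 := rec_zpow hα0 (unitRoot_quartic hy hp hr) k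
      have e4 : osc α c (k + 4) = p * osc α c (k + 3) - ((r + 2 : ℤ) : ℝ) * osc α c (k + 2)
          + p * osc α c (k + 1) - osc α c k := by
        unfold osc
        rw [e3]
        have : c * ((p : ℂ) * α ^ (k + 3) - ((r + 2 : ℤ) : ℂ) * α ^ (k + 2) + p * α ^ (k + 1)
            - α ^ k) = ((p : ℝ) : ℂ) * (c * α ^ (k + 3))
              - (((r + 2 : ℤ) : ℝ) : ℂ) * (c * α ^ (k + 2))
              + ((p : ℝ) : ℂ) * (c * α ^ (k + 1)) - c * α ^ k := by
          push_cast; ring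
        rw [this]
        simp only [Complex.sub_re, Complex.add_re, Complex.re_ofReal_mul]
      simp only [inv_zpow'] at e2
      rw [e1, e2, e4]
      ring
    · refine ⟨0, ?_⟩
      simp only [neg_neg, zpow_one, zpow_neg_one, wm1]; push_cast; ring
    · refine ⟨0, ?_⟩
      simp [w0]
    · refine ⟨0, ?_⟩
      simp only [zpow_one, zpow_neg_one, w1]; push_cast; ring
    · refine ⟨1, ?_⟩
      have e1 : β ^ (2 : ℤ) = β ^ 2 := by norm_cast
      have e2 : β ^ (-2 : ℤ) = β⁻¹ ^ 2 := by rw [zpow_neg, inv_pow]; norm_cast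
      simp only [e1, e2, w2]
      push_cast
      rw [← hA1, ← hy1]; ring
  have hP := prof_of_base hβ hαn hcn hApos hAβ w0 w1 wm1 hint
  refine singular_of_prof hβ hαn hP ?_ (max_lt hAβ hAR)
  rw [hcn]
  have : 0 ≤ A * β⁻¹ ^ 2 := by positivity
  linarith

end Vale.Agent.P105
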