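import Mathlib
import Vale.Agent.P105.Quartic

open Finset Real MeasureTheory Filter Polynomial

namespace Vale.Agent.P105

theorem singular_one {β : ℝ} (h1 : 1 < β) (h : β ^ 4 - β ^ 3 - β ^ 2 - β + 1 = 0) :
    IsSingular (bernoulliConv β⁻¹) := by
  have hβ0 : 0 < β := by linarith
  obtain ⟨l, hl⟩ : ∃ l, l = β⁻¹ := ⟨_, rfl⟩
  have hβl : β * l = 1 := by rw [hl]; exact mul_inv_cancel₀ hβ0.ne'
  have hl0 : 0 < l := by rw [hl]; positivity
  have hy : (β + l) ^ 2 - (β + l) - 3 = 0 := by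
    have : β ^ 2 * ((β + l) ^ 2 - (β + l) - 3) = 0 := by
      linear_combination h + (2 * β ^ 2 + β * l + 1 - β) * hβl
    exact (mul_eq_zero.1 this).resolve_left (by positivity)
  have hy0 : 2 ≤ β + l := by nlinarith [sq_nonneg (β - l)]
  have hy1 : 2.302 < β + l := by nlinarith
  have hy2 : β + l < 2.303 := by nlinarith
  have hb1 : 1.72 < β := by nlinarith
  have hb2 : β < 1.73 := by nlinarith
  have hl2 : l < 0.583 := by linarith
  refine singular_of_quartic (y1 := β + l) (y2 := 1 - (β + l)) (p := 1) (r := -3) (by linarith)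
    (by rw [hl]) (by nlinarith) (by push_cast; ring) (by push_cast; linarith) (by linarith)
    ?_ ?_
  · rw [← hl]; nlinarith
  · rw [← hl]
    have hs : 0.758 ≤ √(1 - (1 - (β + l)) ^ 2 / 4) := by
      apply le_sqrt_of_sq_le; nlinarith
    have e1 : l ^ 2 / ((β - l) * (β + l - (1 - (β + l)))) ≤ 0.583 ^ 2 / (1.137 * 3.604) := by
      gcongr <;> linarith
    have e2 : 1 / ((β + l - (1 - (β + l))) * √(1 - (1 - (β + l)) ^ 2 / 4)) ≤
        1 / (3.604 * 0.758) := by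
      gcongr <;> linarith
    norm_num at e1 e2 ⊢
    linarith

theorem singular_two {β : ℝ} (h1 : 1 < β) (h : β ^ 4 - 2 * β ^ 3 + β ^ 2 - 2 * β + 1 = 0) :
    IsSingular (bernoulliConv β⁻¹) := by
  have hβ0 : 0 < β := by linarith
  obtain ⟨l, hl⟩ : ∃ l, l = β⁻¹ := ⟨_, rfl⟩
  have hβl : β * l = 1 := by rw [hl]; exact mul_inv_cancel₀ hβ0.ne'
  have hl0 : 0 < l := by rw [hl]; positivity
  have hy : (β + l) ^ 2 - 2 * (β + l) - 1 = 0 := by
    have : β ^ 2 * ((β + l) ^ 2 - 2 * (β + l) - 1) = 0 := by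
      linear_combination h + (2 * β ^ 2 + β * l + 1 - 2 * β) * hβl
    exact (mul_eq_zero.1 this).resolve_left (by positivity)
  have hy0 : 2 ≤ β + l := by nlinarith [sq_nonneg (β - l)]
  have hy1 : 2.414 < β + l := by nlinarith
  have hy2 : β + l < 2.415 := by nlinarith
  have hb1 : 1.88 < β := by nlinarith
  have hb2 : β < 1.89 := by nlinarith
  have hl2 : l < 0.535 := by linarith
  refine singular_of_quartic (y1 := β + l) (y2 := 2 - (β + l)) (p := 2) (r := -1) (by linarith)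
    (by rw [hl]) (by nlinarith) (by push_cast; ring) (by push_cast; linarith) (by linarith)
    ?_ ?_
  · rw [← hl]; nlinarith
  · rw [← hl]
    have hs : 0.97 ≤ √(1 - (2 - (β + l)) ^ 2 / 4) := by
      apply le_sqrt_of_sq_le; nlinarith
    have e1 : l ^ 2 / ((β - l) * (β + l - (2 - (β + l)))) ≤ 0.535 ^ 2 / (1.345 * 2.828) := by
      gcongr <;> linarith
    have e2 : 1 / ((β + l - (2 - (β + l))) * √(1 - (2 - (β + l)) ^ 2 / 4)) ≤
        1 / (2.828 * 0.97) := by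
      gcongr <;> linarith
    norm_num at e1 e2 ⊢
    linarith

theorem irreducible_of_map_cyclotomic (P : ℤ[X]) (hP : P.Monic) (p : ℕ) [hp : Fact p.Prime]
    (hp5 : ¬ p ∣ 5) (hord : orderOf (ZMod.unitOfCoprime p (hp.1.coprime_iff_not_dvd.mpr hp5)) = 4)
    (hmap : P.map (Int.castRingHom (ZMod p)) = cyclotomic 5 (ZMod p)) :
    Irreducible (P.map (algebraMap ℤ ℚ)) := by
  rw [← hP.irreducible_iff_irreducible_map_fraction_map]
  refine hP.irreducible_of_irreducible_map (Int.castRingHom (ZMod p)) P ?_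
  rw [hmap]
  refine ZMod.irreducible_of_dvd_cyclotomic_of_natDegree hp5 dvd_rfl ?_
  rw [hord, natDegree_cyclotomic]
  decide

theorem not_pisot_of {β : ℝ} (P : ℤ[X]) (hP : P.Monic)
    (hirr : Irreducible (P.map (algebraMap ℤ ℚ))) (hβ : aeval β P = 0) (z : ℂ)
    (hz : aeval z P = 0) (hz1 : ‖z‖ = 1) : ¬ IsPisot β := by
  rintro ⟨h1, -, h3⟩
  have hmin : P.map (algebraMap ℤ ℚ) = minpoly ℚ β :=
    minpoly.eq_of_irreducible_of_monic hirr (by rw [aeval_map_algebraMap]; exact hβ) (hP.map _)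
  have := h3 z (by rw [← hmin, aeval_map_algebraMap]; exact hz) (by
    rintro rfl
    rw [Complex.norm_real, Real.norm_eq_abs, abs_of_pos (by linarith)] at hz1
    linarith)
  linarith

theorem cyclo5 (R : Type*) [CommRing R] : cyclotomic 5 R = X ^ 4 + X ^ 3 + X ^ 2 + X + 1 := by
  have : Fact (Nat.Prime 5) := ⟨by norm_num⟩
  rw [cyclotomic_prime]
  simp [Finset.sum_range_succ]
  ring

theorem orderOf_two : orderOf (ZMod.unitOfCoprime 2
    (Nat.prime_two.coprime_iff_not_dvd.mpr (by norm_num : ¬ 2 ∣ 5))) = 4 := by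
  rw [← orderOf_units, ZMod.coe_unitOfCoprime, orderOf_eq_iff (by norm_num)]
  decide

theorem orderOf_three : orderOf (ZMod.unitOfCoprime 3
    (Nat.prime_three.coprime_iff_not_dvd.mpr (by norm_num : ¬ 3 ∣ 5))) = 4 := by
  rw [← orderOf_units, ZMod.coe_unitOfCoprime, orderOf_eq_iff (by norm_num)]
  decide

theorem irreducible_one :
    Irreducible ((X ^ 4 - X ^ 3 - X ^ 2 - X + 1 : ℤ[X]).map (algebraMap ℤ ℚ)) := by
  refine irreducible_of_map_cyclotomic _ (by monicity!) 2 (by norm_num) orderOf_two ?_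
  rw [cyclo5]
  have h2 : (2 : (ZMod 2)[X]) = 0 := by
    have : (2 : (ZMod 2)[X]) = C (2 : ZMod 2) := rfl
    rw [this, show (2 : ZMod 2) = 0 by decide, map_zero]
  simp only [Polynomial.map_add, Polynomial.map_sub, Polynomial.map_pow, Polynomial.map_X,
    Polynomial.map_one]
  linear_combination (-(X ^ 3 + X ^ 2 + X) : (ZMod 2)[X]) * h2

theorem irreducible_two :
    Irreducible ((X ^ 4 - 2 * X ^ 3 + X ^ 2 - 2 * X + 1 : ℤ[X]).map (algebraMap ℤ ℚ)) := by
  refine irreducible_of_map_cyclotomic _ (by monicity!) 3 (by norm_num) orderOf_three ?_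
  rw [cyclo5]
  have h3 : (3 : (ZMod 3)[X]) = 0 := by
    have : (3 : (ZMod 3)[X]) = C (3 : ZMod 3) := rfl
    rw [this, show (3 : ZMod 3) = 0 by decide, map_zero]
  simp only [Polynomial.map_add, Polynomial.map_sub, Polynomial.map_pow, Polynomial.map_X,
    Polynomial.map_one, Polynomial.map_mul, Polynomial.map_ofNat]
  linear_combination (-(X ^ 3 + X) : (ZMod 3)[X]) * h3

theorem not_pisot_one {β : ℝ} (h : β ^ 4 - β ^ 3 - β ^ 2 - β + 1 = 0) : ¬ IsPisot β := by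
  have hs : √13 ^ 2 = 13 := sq_sqrt (by norm_num)
  have hs0 : 0 ≤ √13 := sqrt_nonneg _
  have hy : ((1 - √13) / 2) ^ 2 < 4 := by nlinarith
  refine not_pisot_of (X ^ 4 - X ^ 3 - X ^ 2 - X + 1) (by monicity!) irreducible_one
    (by simpa using h) (unitRoot ((1 - √13) / 2)) ?_ (norm_unitRoot hy)
  have := unitRoot_quartic (y1 := (1 + √13) / 2) (p := 1) (r := -3) hy (by push_cast; ring)
    (by push_cast; nlinarith)
  simp only [map_add, map_sub, map_pow, aeval_X, map_one]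
  push_cast at this
  linear_combination this

theorem not_pisot_two {β : ℝ} (h : β ^ 4 - 2 * β ^ 3 + β ^ 2 - 2 * β + 1 = 0) : ¬ IsPisot β := by
  have hs : √2 ^ 2 = 2 := sq_sqrt (by norm_num)
  have hs0 : 0 ≤ √2 := sqrt_nonneg _
  have hy : (1 - √2) ^ 2 < 4 := by nlinarith
  refine not_pisot_of (X ^ 4 - 2 * X ^ 3 + X ^ 2 - 2 * X + 1) (by monicity!) irreducible_two
    (by simpa [map_ofNat] using h) (unitRoot (1 - √2)) ?_ (norm_unitRoot hy)
  have := unitRoot_quartic (y1 := 1 + √2) (p := 2) (r := -1) hy (by push_cast; ring)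
    (by push_cast; nlinarith)
  simp only [map_add, map_sub, map_pow, aeval_X, map_one, map_mul, map_ofNat]
  push_cast at this
  linear_combination this

theorem exists_root_one : ∃ lam ∈ Set.Ioo (1 / 2 : ℝ) 1,
    lam ^ 4 - lam ^ 3 - lam ^ 2 - lam + 1 = 0 := by
  have hc : ContinuousOn (fun x : ℝ => x ^ 4 - x ^ 3 - x ^ 2 - x + 1) (Set.Icc (1 / 2) 1) := by
    fun_prop
  exact intermediate_value_Ioo' (by norm_num) hc (by norm_num)

theorem exists_root_two : ∃ lam ∈ Set.Ioo (1 / 2 : ℝ) 1,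
    lam ^ 4 - 2 * lam ^ 3 + lam ^ 2 - 2 * lam + 1 = 0 := by
  have hc : ContinuousOn (fun x : ℝ => x ^ 4 - 2 * x ^ 3 + x ^ 2 - 2 * x + 1)
      (Set.Icc (1 / 2) 1) := by
    fun_prop
  exact intermediate_value_Ioo' (by norm_num) hc (by norm_num)

theorem main_one {lam : ℝ} (hl : lam ∈ Set.Ioo (1 / 2 : ℝ) 1)
    (h : lam ^ 4 - lam ^ 3 - lam ^ 2 - lam + 1 = 0) :
    ¬ IsPisot lam⁻¹ ∧ IsSingular (bernoulliConv lam) := by
  have h0 : 0 < lam := by linarith [hl.1]
  have h1 : 1 < lam⁻¹ := (one_lt_inv₀ h0).2 hl.2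
  have h2 : lam⁻¹ ^ 4 - lam⁻¹ ^ 3 - lam⁻¹ ^ 2 - lam⁻¹ + 1 = 0 := by
    field_simp; linarith
  exact ⟨not_pisot_one h2, by simpa using singular_one h1 h2⟩

theorem main_two {lam : ℝ} (hl : lam ∈ Set.Ioo (1 / 2 : ℝ) 1)
    (h : lam ^ 4 - 2 * lam ^ 3 + lam ^ 2 - 2 * lam + 1 = 0) :
    ¬ IsPisot lam⁻¹ ∧ IsSingular (bernoulliConv lam) := by
  have h0 : 0 < lam := by linarith [hl.1]
  have h1 : 1 < lam⁻¹ := (one_lt_inv₀ h0).2 hl.2
  have h2 : lam⁻¹ ^ 4 - 2 * lam⁻¹ ^ 3 + lam⁻¹ ^ 2 - 2 * lam⁻¹ + 1 = 0 := by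
    field_simp; linarith
  exact ⟨not_pisot_two h2, by simpa using singular_two h1 h2⟩

end Vale.Agent.P105
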